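import Mathlib

namespace Vale.Agent.P084

open MeasureTheory Metric Set Polynomial

theorem brouwer_weights (d : ℕ) (v : ℕ → ℝ) (hv : InjOn v (Finset.range (d + 1))) :
    ∃ w : ℕ → ℝ, ∀ M : EuclideanSpace ℝ (Fin d) →L[ℝ] EuclideanSpace ℝ (Fin d),
      (1 + M).det = ∑ k ∈ Finset.range (d + 1), w k * (1 + v k • M).det := by
  refine ⟨fun k => (Lagrange.basis (Finset.range (d + 1)) v k).eval 1, fun M => ?_⟩
  set b := (EuclideanSpace.basisFun (Fin d) ℝ).toBasis
  set A := LinearMap.toMatrix b b (M : EuclideanSpace ℝ (Fin d) →ₗ[ℝ] EuclideanSpace ℝ (Fin d))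
  set p : ℝ[X] := Matrix.det ((X : ℝ[X]) • A.map C + (1 : Matrix (Fin d) (Fin d) ℝ).map C) with hp
  have he : ∀ t : ℝ, p.eval t = (1 + t • M).det := fun t => by
    rw [ContinuousLinearMap.det, ← LinearMap.det_toMatrix b, hp, ← coe_evalRingHom,
      RingHom.map_det]
    congr 1
    have e : LinearMap.toMatrix b b ((1 + t • M : EuclideanSpace ℝ (Fin d) →L[ℝ] _) :
        EuclideanSpace ℝ (Fin d) →ₗ[ℝ] EuclideanSpace ℝ (Fin d)) = 1 + t • A := by
      rw [ContinuousLinearMap.toLinearMap_add, ContinuousLinearMap.toLinearMap_smul, map_add, map_smul,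
        ContinuousLinearMap.toLinearMap_one, LinearMap.toMatrix_one]
    rw [e]
    ext i j
    simp only [RingHom.mapMatrix_apply, Matrix.map_apply, Matrix.add_apply, Matrix.smul_apply,
      smul_eq_mul, coe_evalRingHom, eval_add, eval_mul, eval_X, eval_C]
    ring
  have hd : p.degree < (Finset.range (d + 1)).card := by
    have := natDegree_det_X_add_C_le A 1
    rw [Fintype.card_fin] at this
    rw [Finset.card_range]
    exact (degree_le_of_natDegree_le this).trans_lt (by exact_mod_cast Nat.lt_succ_self d)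
  have h1 := congrArg (eval 1) (Lagrange.eq_interpolate hv hd)
  rw [he, one_smul, Lagrange.interpolate_apply, eval_finsetSum] at h1
  rw [h1]
  exact Finset.sum_congr rfl fun k _ => by rw [eval_mul, eval_C, he, mul_comm]

theorem brouwer_no_retraction {d : ℕ} {r : EuclideanSpace ℝ (Fin d) → EuclideanSpace ℝ (Fin d)}
    (hr : ContDiff ℝ 1 r) {ρ : ℝ} (hρ : 0 < ρ) (h1 : ∀ x, ‖r x‖ = ρ)
    (h2 : ∀ x, ‖x‖ = ρ → r x = x) : False := by
  have hh : ContDiff ℝ 1 fun x => r x - x := hr.sub contDiff_id
  have hd : Differentiable ℝ fun x => r x - x := hh.differentiable (by simp)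
  have hc : Continuous (fderiv ℝ fun x => r x - x) := hh.continuous_fderiv (by simp)
  obtain ⟨K, hK⟩ := (isCompact_closedBall (0 : EuclideanSpace ℝ (Fin d)) ρ).exists_bound_of_continuousOn
    hc.continuousOn
  have hK0 : 0 ≤ K := (norm_nonneg _).trans (hK 0 (mem_closedBall_self hρ.le))
  obtain ⟨δ, hδ, hdet⟩ : ∃ δ > 0, ∀ M : EuclideanSpace ℝ (Fin d) →L[ℝ] EuclideanSpace ℝ (Fin d),
      dist M 1 < δ → 0 < M.det := by
    have h0 : (0:ℝ) < (1 : EuclideanSpace ℝ (Fin d) →L[ℝ] EuclideanSpace ℝ (Fin d)).det := by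
      simp [ContinuousLinearMap.det]
    exact Metric.eventually_nhds_iff.1
      (ContinuousLinearMap.continuous_det.continuousAt.eventually (lt_mem_nhds h0))
  set t0 : ℝ := min δ 1 / (2 * (K + 1)) with ht0
  have hm : 0 < min δ 1 := lt_min hδ one_pos
  have ht00 : 0 < t0 := by positivity
  have ht01 : t0 * (K + 1) = min δ 1 / 2 := by rw [ht0]; field_simp
  have key : ∀ t : ℝ, 0 ≤ t → t ≤ t0 →
      ∫ x in ball (0 : EuclideanSpace ℝ (Fin d)) ρ, (1 + t • fderiv ℝ (fun x => r x - x) x).det
        = volume.real (ball (0 : EuclideanSpace ℝ (Fin d)) ρ) := by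
    intro t ht htt
    have h3 : t * (K + 1) ≤ min δ 1 / 2 := ht01 ▸ mul_le_mul_of_nonneg_right htt (by positivity)
    have h4 := min_le_left δ 1
    have h5 := min_le_right δ 1
    have htK : t * K ≤ 1 / 2 := by nlinarith
    have ht1 : t < 1 := by nlinarith
    have hG : ∀ x, HasFDerivAt (fun x => x + t • (r x - x))
        (1 + t • fderiv ℝ (fun x => r x - x) x) x := fun x =>
      (hasFDerivAt_id x).add ((hd x).hasFDerivAt.const_smul t)
    have hA : ApproximatesLinearOn (fun x => x + t • (r x - x))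
        ((ContinuousLinearEquiv.refl ℝ (EuclideanSpace ℝ (Fin d)) : _ ≃L[ℝ] _) : _ →L[ℝ] _)
        (ball 0 ρ) (1 / 2 : NNReal) := by
      intro x hx y hy
      have := (convex_closedBall (0 : EuclideanSpace ℝ (Fin d)) ρ).norm_image_sub_le_of_norm_fderiv_le
        (fun x _ => hd x) hK (ball_subset_closedBall hy) (ball_subset_closedBall hx)
      have e : x + t • (r x - x) - (y + t • (r y - y))
          - ((ContinuousLinearEquiv.refl ℝ (EuclideanSpace ℝ (Fin d)) : _ ≃L[ℝ] _) : _ →L[ℝ] _)
            (x - y) = t • ((r x - x) - (r y - y)) := by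
        simp only [ContinuousLinearEquiv.coe_refl, ContinuousLinearMap.id_apply, smul_sub]
        abel
      rw [e, norm_smul, Real.norm_of_nonneg ht]
      have h6 := mul_le_mul_of_nonneg_left this ht
      have h7 := mul_le_mul_of_nonneg_right htK (norm_nonneg (x - y))
      push_cast
      linarith
    have hN : Subsingleton (EuclideanSpace ℝ (Fin d)) ∨ (1 / 2 : NNReal) <
        ‖((ContinuousLinearEquiv.refl ℝ (EuclideanSpace ℝ (Fin d))).symm :
          EuclideanSpace ℝ (Fin d) →L[ℝ] EuclideanSpace ℝ (Fin d))‖₊⁻¹ := by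
      rcases subsingleton_or_nontrivial (EuclideanSpace ℝ (Fin d)) with h | h
      · exact Or.inl h
      · right
        simp only [ContinuousLinearEquiv.refl_symm, ContinuousLinearEquiv.coe_refl,
          ContinuousLinearMap.nnnorm_id, inv_one]
        exact one_half_lt_one
    have hinj := hA.injOn hN
    have hopen := hA.open_image (ContinuousLinearEquiv.refl ℝ _).toNonlinearRightInverse
      isOpen_ball hN
    have hGc : Continuous fun x => x + t • (r x - x) :=
      continuous_id.add (hh.continuous.const_smul t)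
    have hin : (fun x => x + t • (r x - x)) '' ball 0 ρ ⊆ ball 0 ρ := by
      rintro _ ⟨x, hx, rfl⟩
      rw [mem_ball_zero_iff] at hx ⊢
      have e : x + t • (r x - x) = (1 - t) • x + t • r x := by
        rw [smul_sub, sub_smul, one_smul]; abel
      beta_reduce
      rw [e]
      refine (norm_add_le _ _).trans_lt ?_
      rw [norm_smul, norm_smul, Real.norm_of_nonneg ht, Real.norm_of_nonneg (by linarith), h1]
      nlinarith
    have hout : ball 0 ρ ⊆ (fun x => x + t • (r x - x)) '' ball 0 ρ := by
      refine (convex_ball _ _).isPreconnected.subset_of_closure_inter_subset hopen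
        ⟨_, hin ⟨0, mem_ball_self hρ, rfl⟩, 0, mem_ball_self hρ, rfl⟩ ?_
      rintro y ⟨hy1, hy2⟩
      obtain ⟨x, hx, rfl⟩ := closure_minimal (image_mono ball_subset_closedBall)
        ((isCompact_closedBall _ _).image hGc).isClosed hy1
      refine ⟨x, ?_, rfl⟩
      rw [mem_closedBall_zero_iff] at hx
      rw [mem_ball_zero_iff] at hy2 ⊢
      refine lt_of_le_of_ne hx fun h => ?_
      simp [h2 x h, h] at hy2
    have h6 := integral_image_eq_integral_abs_det_fderiv_smul volume measurableSet_ball
      (fun x _ => (hG x).hasFDerivWithinAt) hinj (fun _ => (1:ℝ))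
    rw [hin.antisymm hout] at h6
    simp only [integral_const, smul_eq_mul, mul_one, MeasurableSet.univ,
      measureReal_restrict_apply, univ_inter] at h6
    rw [h6]
    refine setIntegral_congr_fun measurableSet_ball fun x hx => (abs_of_pos (hdet _ ?_)).symm
    rw [dist_eq_norm, add_sub_cancel_left, norm_smul, Real.norm_of_nonneg ht]
    have := mul_le_mul_of_nonneg_left (hK x (ball_subset_closedBall hx)) ht
    nlinarith
  obtain ⟨w, hw⟩ := brouwer_weights d (fun k => t0 * (k / (d + 1))) (fun i _ j _ h => by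
    have h3 := mul_left_cancel₀ ht00.ne' h
    rw [div_left_inj' (by positivity)] at h3
    exact_mod_cast h3)
  have hw1 : ∑ k ∈ Finset.range (d + 1), w k = 1 := by
    simpa [ContinuousLinearMap.det] using (hw 0).symm
  have hint : ∀ t : ℝ, IntegrableOn (fun x => (1 + t • fderiv ℝ (fun x => r x - x) x).det)
      (ball (0 : EuclideanSpace ℝ (Fin d)) ρ) := fun t =>
    ((ContinuousLinearMap.continuous_det.comp (continuous_const.add
      (hc.const_smul t))).continuousOn.integrableOn_compact (isCompact_closedBall 0 ρ)).mono_set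
      ball_subset_closedBall
  have hz : ∀ x, (1 + fderiv ℝ (fun x => r x - x) x).det = 0 := fun x => by
    have hrx := (hr.differentiable (by simp) x).hasFDerivAt
    have e : 1 + fderiv ℝ (fun x => r x - x) x = fderiv ℝ r x := by
      rw [(hrx.fun_sub (hasFDerivAt_id x) : HasFDerivAt (fun x => r x - x) _ x).fderiv]
      ext v; simp
    rw [e]
    by_contra hne
    have hs : Function.Surjective (fderiv ℝ r x) :=
      (LinearMap.equivOfDetNeZero _ hne).surjective
    obtain ⟨v, hv⟩ := hs (r x)
    have h3 := hrx.norm_sq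
    simp only [h1] at h3
    have h4 := congrArg (fun L => L v) (h3.unique (hasFDerivAt_const (ρ ^ 2) x))
    simp [hv, h1, hρ.ne'] at h4
  have h7 : ∫ x in ball (0 : EuclideanSpace ℝ (Fin d)) ρ,
      (1 + fderiv ℝ (fun x => r x - x) x).det
      = volume.real (ball (0 : EuclideanSpace ℝ (Fin d)) ρ) := by
    rw [show (fun x => (1 + fderiv ℝ (fun x => r x - x) x).det) = _ from funext fun x => hw _,
      integral_finsetSum _ fun k _ => (hint _).const_mul _]
    simp only [integral_const_mul]
    rw [Finset.sum_congr rfl fun k hk => by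
      rw [key _ (by positivity) (mul_le_of_le_one_right ht00.le (by
        rw [div_le_one (by positivity)]
        exact_mod_cast (Finset.mem_range.1 hk).le))], ← Finset.sum_mul, hw1, one_mul]
  simp only [hz, integral_zero] at h7
  exact (ENNReal.toReal_pos (measure_ball_pos volume _ hρ).ne' measure_ball_lt_top.ne).ne h7

theorem brouwer_euclid {d : ℕ} {f : EuclideanSpace ℝ (Fin d) → EuclideanSpace ℝ (Fin d)}
    (hf : Continuous f) {C : ℝ} (hC : ∀ x, ‖f x‖ ≤ C) : ∃ x, f x = x := by
  by_contra hno
  push Not at hno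
  have hC0 : 0 ≤ C := (norm_nonneg _).trans (hC 0)
  let χ : ContDiffBump (0 : EuclideanSpace ℝ (Fin d)) := ⟨C + 1, C + 2, by linarith, by linarith⟩
  have hg0 : ∀ x, x - χ x • f x ≠ 0 := fun x h => by
    rcases le_or_gt ‖x‖ (C + 1) with h1 | h1
    · rw [χ.one_of_mem_closedBall (mem_closedBall_zero_iff.2 h1), one_smul, sub_eq_zero] at h
      exact hno x h.symm
    · have h2 := congrArg norm (sub_eq_zero.1 h)
      rw [norm_smul, Real.norm_of_nonneg χ.nonneg] at h2
      nlinarith [χ.le_one (x := x), χ.nonneg (x := x), hC x, norm_nonneg (f x)]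
  have hc : Continuous fun x => x - χ x • f x := continuous_id.sub (χ.continuous.smul hf)
  have hid : ∀ x : EuclideanSpace ℝ (Fin d), C + 2 < ‖x‖ → x - χ x • f x = x := fun x hx => by
    rw [χ.zero_of_le_dist (by simpa [χ] using hx.le), zero_smul, sub_zero]
  obtain ⟨g, hg, hga, hge, -⟩ := hc.exists_contDiff_approx_and_eqOn 1 hc.norm
    (fun x => norm_pos_iff.2 (hg0 x)) (S := sphere 0 (C + 3)) (U := {x | C + 2 < ‖x‖})
    isClosed_sphere ((isOpen_lt continuous_const continuous_norm).mem_nhdsSet.2 fun x hx => by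
      rw [mem_sphere_zero_iff_norm] at hx
      change C + 2 < ‖x‖
      linarith) (contDiffOn_id.congr hid)
  have hg1 : ∀ x, g x ≠ 0 := fun x h => by
    have := hga x
    rw [h, dist_zero_left] at this
    exact lt_irrefl _ this
  refine brouwer_no_retraction (r := fun x => ((C + 3) * ‖g x‖⁻¹) • g x) (ρ := C + 3)
    ((contDiff_const.mul ((hg.norm ℝ hg1).inv fun x => norm_ne_zero_iff.2 (hg1 x))).smul hg)
    (by linarith) (fun x => ?_) (fun x hx => ?_)
  · rw [norm_smul, norm_mul, norm_inv, norm_norm, Real.norm_of_nonneg (by linarith),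
      inv_mul_cancel_right₀ (norm_ne_zero_iff.2 (hg1 x))]
  · have : g x = x := (hge (mem_sphere_zero_iff_norm.2 hx)).trans (hid x (by linarith))
    beta_reduce
    rw [this, hx, mul_inv_cancel₀ (by linarith), one_smul]

/-- Brouwer fixed point theorem, for bounded continuous maps of a finite dimensional space. -/
theorem brouwer_bounded {E : Type*} [NormedAddCommGroup E] [NormedSpace ℝ E]
    [FiniteDimensional ℝ E] {f : E → E} (hf : Continuous f) {C : ℝ} (hC : ∀ x, ‖f x‖ ≤ C) :
    ∃ x, f x = x := by
  let e : E ≃L[ℝ] EuclideanSpace ℝ (Fin (Module.finrank ℝ E)) := toEuclidean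
  obtain ⟨y, hy⟩ := brouwer_euclid (f := fun y => e (f (e.symm y)))
    (e.continuous.comp (hf.comp e.symm.continuous)) (C := ‖e.toContinuousLinearMap‖ * C) fun y =>
    (e.toContinuousLinearMap.le_opNorm _).trans (mul_le_mul_of_nonneg_left (hC _) (norm_nonneg _))
  exact ⟨e.symm y, e.injective (by simpa using hy)⟩

end Vale.Agent.P084
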