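import Vale.Agent.P084.Brouwer

/-!
P084: a one-sided approximate fixed point for finitely many convex functions.
-/

namespace Vale.Agent.P084

open Set Metric

theorem one_sided_fix {E : Type*} [SeminormedAddCommGroup E] [NormedSpace ℝ E] {F : Set E}
    (hF : Convex ℝ F) (hne : F.Nonempty) {T : E → E} (hT : ∀ a ∈ F, T a ∈ F)
    (hTc : ContinuousOn T F) {J : Type} [Fintype J] (h : J → E → ℝ)
    (hc : ∀ j, Continuous (h j)) (hconv : ∀ j, ConvexOn ℝ univ (h j)) {C : ℝ}
    (hb : ∀ j, ∀ a ∈ F, |h j a| ≤ C) {ε : ℝ} (hε : 0 < ε) :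
    ∃ a ∈ F, ∀ j, h j a ≤ h j (T a) + ε := by
  classical
  let Φ : E → J → ℝ := fun a j => h j a
  have hΦ : Continuous Φ := continuous_pi hc
  have hbd : Bornology.IsBounded (Φ '' F) := by
    refine (isBounded_iff_forall_norm_le).2 ⟨max C 0, ?_⟩
    rintro _ ⟨a, ha, rfl⟩
    exact (pi_norm_le_iff_of_nonneg (le_max_right _ _)).2 fun j =>
      (hb j a ha).trans (le_max_left _ _)
  have htb : TotallyBounded (Φ '' F) :=
    hbd.isCompact_closure.totallyBounded.subset subset_closure
  obtain ⟨t, htS, htf, hcov⟩ := finite_approx_of_totallyBounded htb ε hε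
  have : Fintype t := htf.fintype
  choose a haF haΦ using fun i : t => htS i.2
  have hcov' : ∀ b ∈ F, ∃ i : t, dist (Φ b) i < ε := by
    intro b hb
    have := hcov (mem_image_of_mem Φ hb)
    simp only [mem_iUnion, mem_ball, exists_prop] at this
    obtain ⟨y, hy, hd⟩ := this
    exact ⟨⟨y, hy⟩, hd⟩
  obtain ⟨i₀, -⟩ := hcov' _ hne.some_mem
  let D : (t → ℝ) → ℝ := fun u => max 0 (1 - ∑ k, max 0 (u k))
  let S : (t → ℝ) → ℝ := fun u => ∑ k, (max 0 (u k) + D u)
  have hS : ∀ u, 0 < S u := by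
    intro u
    have h0 : ∀ k, 0 ≤ max 0 (u k) := fun k => le_max_left _ _
    have h1 : 0 ≤ D u := le_max_left _ _
    by_cases h2 : ∑ k, max 0 (u k) < 1
    · have h3 : 0 < D u := lt_max_of_lt_right (by linarith)
      have h4 := Finset.single_le_sum (f := fun k => max 0 (u k) + D u)
        (fun k _ => add_nonneg (h0 k) h1) (Finset.mem_univ i₀)
      have := h0 i₀
      exact lt_of_lt_of_le (by linarith) h4
    · have h4 : ∑ k, max 0 (u k) ≤ S u := Finset.sum_le_sum fun k _ => le_add_of_nonneg_right h1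
      linarith
  let G : (t → ℝ) → E := fun u => ∑ i, ((max 0 (u i) + D u) / S u) • a i
  have hGF : ∀ u, G u ∈ F := fun u =>
    hF.sum_mem (fun i _ => div_nonneg (add_nonneg (le_max_left _ _) (le_max_left _ _)) (hS u).le)
      (by rw [← Finset.sum_div]; exact div_self (hS u).ne') fun i _ => haF i
  have hDc : Continuous D := by fun_prop
  have hSc : Continuous S := by fun_prop
  have hGc : Continuous G := continuous_finsetSum _ fun i _ =>
    ((by fun_prop : Continuous fun u : t → ℝ => max 0 (u i) + D u).div hSc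
      fun u => (hS u).ne').smul continuous_const
  have hTG : Continuous fun u => Φ (T (G u)) := hΦ.comp (hTc.comp_continuous hGc hGF)
  let w : (t → ℝ) → t → ℝ := fun u i => max 0 (ε - dist (Φ (T (G u))) i)
  have hw0 : ∀ u i, 0 ≤ w u i := fun u i => le_max_left _ _
  have hwc : ∀ i, Continuous fun u => w u i := fun i =>
    continuous_const.max (continuous_const.sub (hTG.dist continuous_const))
  have hW : ∀ u, 0 < ∑ i, w u i := by
    intro u
    obtain ⟨i, hi⟩ := hcov' _ (hT _ (hGF u))
    have h1 : 0 < w u i := lt_max_of_lt_right (by linarith)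
    exact h1.trans_le (Finset.single_le_sum (fun k _ => hw0 u k) (Finset.mem_univ i))
  obtain ⟨u, hu⟩ := brouwer_bounded (f := fun u i => w u i / ∑ k, w u k)
    (continuous_pi fun i => (hwc i).div (continuous_finsetSum _ fun k _ => hwc k)
      fun u => (hW u).ne') (C := 1) fun u => (pi_norm_le_iff_of_nonneg zero_le_one).2 fun i => by
      rw [Real.norm_eq_abs, abs_of_nonneg (div_nonneg (hw0 u i) (hW u).le), div_le_one (hW u)]
      exact Finset.single_le_sum (fun k _ => hw0 u k) (Finset.mem_univ i)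
  have hu' : ∀ i, u i = w u i / ∑ k, w u k := fun i => (congrFun hu i).symm
  have hu0 : ∀ i, 0 ≤ u i := fun i => by rw [hu' i]; exact div_nonneg (hw0 u i) (hW u).le
  have hu1 : ∑ i, u i = 1 := by
    rw [Finset.sum_congr rfl fun i _ => hu' i, ← Finset.sum_div]
    exact div_self (hW u).ne'
  have hm : ∀ i, max 0 (u i) = u i := fun i => max_eq_right (hu0 i)
  have hD : D u = 0 := by simp only [D, hm, hu1, sub_self, max_self]
  have hG : G u = ∑ i, u i • a i := by simp only [G, S, hm, hD, add_zero, hu1, div_one]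
  refine ⟨G u, hGF u, fun j => ?_⟩
  have h1 := (hconv j).map_sum_le (t := Finset.univ) (w := u) (p := a) (fun i _ => hu0 i) hu1
    fun i _ => mem_univ _
  rw [← hG] at h1
  refine h1.trans ?_
  calc ∑ i, u i • h j (a i) ≤ ∑ i, u i * (h j (T (G u)) + ε) := by
        refine Finset.sum_le_sum fun i _ => ?_
        rcases (hu0 i).eq_or_lt with h2 | h2
        · rw [← h2, zero_smul, zero_mul]
        · refine mul_le_mul_of_nonneg_left ?_ h2.le
          have h3 : 0 < w u i := by
            rw [hu' i] at h2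
            exact (div_pos_iff_of_pos_right (hW u)).1 h2
          have h4 : dist (Φ (T (G u))) i < ε := by
            rcases lt_max_iff.1 h3 with h5 | h5
            · exact absurd h5 (lt_irrefl _)
            · linarith
          have h5 := (dist_le_pi_dist (Φ (T (G u))) i j).trans_lt h4
          rw [← haΦ i, Real.dist_eq] at h5
          have := (abs_lt.1 h5).1
          simp only [Φ] at this
          linarith
    _ = _ := by rw [← Finset.sum_mul, hu1, one_mul]

/-- Profiles along a fixed vector `y` can be almost aligned from one side. -/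
theorem exists_aligned {E : Type*} [SeminormedAddCommGroup E] [NormedSpace ℝ E] {F : Set E}
    (hF : Convex ℝ F) (hne : F.Nonempty) (hF1 : ∀ a ∈ F, ‖a‖ = 1) {T : E → E}
    (hT : ∀ a ∈ F, T a ∈ F) (hTc : ContinuousOn T F) {y : E} (hy : ‖y‖ = 1) {ε : ℝ} (hε : 0 < ε) :
    ∃ a ∈ F, ∀ α r : ℝ, 0 ≤ α → α ≤ 2 → |r| ≤ 1 →
      ‖α • a + r • y‖ ≤ ‖α • T a + r • y‖ + ε := by
  obtain ⟨t, -, htf, hcov⟩ := finite_approx_of_totallyBounded
    (isCompact_closedBall (0 : ℝ × ℝ) 2).totallyBounded (ε / 5) (by positivity)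
  have : Fintype t := htf.fintype
  obtain ⟨C, hC⟩ := htf.isBounded.exists_norm_le
  have lip : ∀ v : E, ‖v‖ = 1 → ∀ s s' : ℝ × ℝ, dist s s' < ε / 5 →
      ‖s.1 • v + s.2 • y‖ ≤ ‖s'.1 • v + s'.2 • y‖ + 2 * (ε / 5) := by
    intro v hv s s' hd
    have h1 : |s.1 - s'.1| < ε / 5 := (le_max_left _ _).trans_lt hd
    have h2 : |s.2 - s'.2| < ε / 5 := (le_max_right _ _).trans_lt hd
    have e : s.1 • v + s.2 • y = (s'.1 • v + s'.2 • y) + ((s.1 - s'.1) • v + (s.2 - s'.2) • y) := by
      module
    have h3 := norm_add_le ((s.1 - s'.1) • v) ((s.2 - s'.2) • y)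
    rw [norm_smul, norm_smul, hv, hy, Real.norm_eq_abs, Real.norm_eq_abs] at h3
    rw [e]
    linarith [norm_add_le (s'.1 • v + s'.2 • y) ((s.1 - s'.1) • v + (s.2 - s'.2) • y)]
  obtain ⟨a, ha, hal⟩ := one_sided_fix hF hne hT hTc (J := t)
    (fun j v => ‖j.1.1 • v + j.1.2 • y‖) (fun j => by fun_prop)
    (fun j => by
      refine ⟨convex_univ, fun v _ v' _ c c' hc hc' hcc => ?_⟩
      have e : j.1.1 • (c • v + c' • v') + j.1.2 • y
          = c • (j.1.1 • v + j.1.2 • y) + c' • (j.1.1 • v' + j.1.2 • y) := by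
        have : c' = 1 - c := by linarith
        rw [this]
        module
      simp only [smul_eq_mul]
      rw [e]
      refine (norm_add_le _ _).trans (le_of_eq ?_)
      rw [norm_smul, norm_smul, Real.norm_of_nonneg hc, Real.norm_of_nonneg hc'])
    (C := 2 * C) (fun j a ha => by
      have h1 : ‖j.1.1‖ ≤ C := (norm_fst_le j.1).trans (hC _ j.2)
      have h2 : ‖j.1.2‖ ≤ C := (norm_snd_le j.1).trans (hC _ j.2)
      have h3 := norm_add_le (j.1.1 • a) (j.1.2 • y)
      rw [norm_smul, norm_smul, hF1 a ha, hy] at h3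
      rw [abs_norm]
      linarith) (ε := ε / 5) (by positivity)
  refine ⟨a, ha, fun α r h0 h2 hr => ?_⟩
  have hm : ((α, r) : ℝ × ℝ) ∈ closedBall (0 : ℝ × ℝ) 2 := by
    rw [mem_closedBall_zero_iff, Prod.norm_def, Real.norm_of_nonneg h0, Real.norm_eq_abs]
    exact max_le h2 (by linarith)
  have := hcov hm
  simp only [mem_iUnion, mem_ball, exists_prop] at this
  obtain ⟨s, hs, hd⟩ := this
  have h1 := lip a (hF1 a ha) (α, r) s hd
  have h3 := lip (T a) (hF1 _ (hT a ha)) s (α, r) (by rwa [dist_comm])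
  have h4 := hal ⟨s, hs⟩
  simp only at h1 h3 h4
  linarith

end Vale.Agent.P084
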