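import Vale.Agent.P084.Scalar
import Vale.Agent.P084.Fix

/-!
P084: an attained positive maximal radial defect is impossible.
-/

namespace Vale.Agent.P084

open Set

section Geom

variable {E : Type*} [SeminormedAddCommGroup E] [NormedSpace ℝ E]

theorem prof_norm (v : E) {y : E} (hy : ‖y‖ = 1) : Prof fun α r : ℝ => ‖α • v + r • y‖ where
  hom c α r hc := by
    rw [mul_smul, mul_smul, ← smul_add, norm_smul, Real.norm_of_nonneg hc]
  conv α₁ α₂ r h1 h2 := by
    have e : α₂ • (α₁ • v + r • y) = (α₂ - α₁) • (r • y) + α₁ • (α₂ • v + r • y) := by module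
    have h3 := norm_add_le ((α₂ - α₁) • (r • y)) (α₁ • (α₂ • v + r • y))
    rw [← e, norm_smul, norm_smul, norm_smul, norm_smul, hy, Real.norm_of_nonneg (h1.trans h2),
      Real.norm_of_nonneg (sub_nonneg.2 h2), Real.norm_of_nonneg h1, Real.norm_eq_abs] at h3
    linarith

theorem exists_hit {c v : E} (hc : ‖c‖ < 1) (hv : ‖v‖ = 1) : ∃ s : ℝ, 0 < s ∧ ‖c + s • v‖ = 1 := by
  have hcont : ContinuousOn (fun s : ℝ => ‖c + s • v‖) (Icc 0 2) := by fun_prop
  have h2 : 1 ≤ ‖c + (2 : ℝ) • v‖ := by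
    have := norm_sub_le (c + (2 : ℝ) • v) c
    rw [add_sub_cancel_left, norm_smul, hv, Real.norm_two] at this
    linarith
  obtain ⟨s, hs, h⟩ := intermediate_value_Icc zero_le_two hcont (a := 0) (b := 2)
    (show (1 : ℝ) ∈ Icc _ _ from ⟨by simpa using hc.le, h2⟩)
  refine ⟨s, hs.1.lt_of_ne fun h0 => ?_, h⟩
  rw [← h0] at h
  simp only [zero_smul, add_zero] at h
  linarith

theorem hit_bounds {c v : E} {t s : ℝ} (hc : ‖c‖ = t) (hv : ‖v‖ = 1) (hs : 0 ≤ s)
    (h : ‖c + s • v‖ = 1) : 1 - t ≤ s ∧ s ≤ 1 + t := by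
  have h1 := norm_add_le c (s • v)
  have h2 := norm_sub_le (c + s • v) c
  rw [add_sub_cancel_left] at h2
  rw [norm_smul, hv, Real.norm_of_nonneg hs] at h1 h2
  constructor <;> linarith

theorem hit_lip_aux {c v v' : E} {t s s' : ℝ} (hc : ‖c‖ = t) (ht : t < 1) (hv : ‖v‖ = 1)
    (hv' : ‖v'‖ = 1) (hs : 0 ≤ s) (hs' : 0 ≤ s') (h : ‖c + s • v‖ = 1) (h' : ‖c + s' • v'‖ = 1) :
    (1 - t) * (s' - s) ≤ 4 * ‖v - v'‖ := by
  have n0 := norm_nonneg (v - v')
  rcases le_total s' s with hle | hle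
  · nlinarith
  have b := (hit_bounds hc hv hs h).2
  have b' := (hit_bounds hc hv' hs' h').2
  have e : s' • (c + s • v) = (s' - s) • c + s • (c + s' • v') + (s * s') • (v - v') := by module
  have h1 := norm_add₃_le (a := (s' - s) • c) (b := s • (c + s' • v')) (c := (s * s') • (v - v'))
  rw [← e, norm_smul, norm_smul, norm_smul, norm_smul, h, h', hc, Real.norm_of_nonneg hs',
    Real.norm_of_nonneg hs, Real.norm_of_nonneg (sub_nonneg.2 hle),
    Real.norm_of_nonneg (mul_nonneg hs hs')] at h1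
  have h2 : s * s' ≤ 4 := by nlinarith
  nlinarith [mul_le_mul_of_nonneg_right h2 n0]

theorem hit_lip {c v v' : E} {t s s' : ℝ} (hc : ‖c‖ = t) (ht : t < 1) (hv : ‖v‖ = 1)
    (hv' : ‖v'‖ = 1) (hs : 0 ≤ s) (hs' : 0 ≤ s') (h : ‖c + s • v‖ = 1) (h' : ‖c + s' • v'‖ = 1) :
    (1 - t) * ‖s • v - s' • v'‖ ≤ 6 * ‖v - v'‖ := by
  have h1 := hit_lip_aux hc ht hv hv' hs hs' h h'
  have h2 := hit_lip_aux hc ht hv' hv hs' hs h' h
  rw [norm_sub_rev] at h2
  have ht0 : 0 ≤ t := hc ▸ norm_nonneg c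
  have n0 := norm_nonneg (v - v')
  have b := (hit_bounds hc hv hs h).2
  have e : s • v - s' • v' = s • (v - v') + (s - s') • v' := by module
  have h3 := norm_add_le (s • (v - v')) ((s - s') • v')
  rw [← e, norm_smul, norm_smul, hv', Real.norm_of_nonneg hs, Real.norm_eq_abs, mul_one] at h3
  have h4 : (1 - t) * |s - s'| ≤ 4 * ‖v - v'‖ := by
    rcases abs_cases (s - s') with k | k <;> rw [k.1] <;> linarith
  have h5 : (1 - t) * s ≤ 2 := by nlinarith
  nlinarith [mul_le_mul_of_nonneg_left h3 (sub_nonneg.2 ht.le), mul_le_mul_of_nonneg_right h5 n0]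

theorem dir_lip {v v' : E} {τ s s' : ℝ} (hv : ‖v‖ = 1) (hv' : ‖v'‖ = 1) (hτ : 0 ≤ τ) (hs : τ ≤ s)
    (hs' : 0 ≤ s') : τ * ‖v - v'‖ ≤ 2 * ‖s • v - s' • v'‖ := by
  have h0 : 0 ≤ s := hτ.trans hs
  have e : s • (v - v') = (s • v - s' • v') + (s' - s) • v' := by module
  have h1 := norm_add_le (s • v - s' • v') ((s' - s) • v')
  have h2 := abs_norm_sub_norm_le (s' • v') (s • v)
  rw [← e, norm_smul, norm_smul, hv', Real.norm_of_nonneg h0, Real.norm_eq_abs, mul_one] at h1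
  rw [norm_smul, norm_smul, hv, hv', Real.norm_of_nonneg h0, Real.norm_of_nonneg hs', mul_one,
    mul_one, norm_sub_rev] at h2
  nlinarith [mul_le_mul_of_nonneg_right hs (norm_nonneg (v - v'))]

theorem add_of_two {u v : E} (hu : ‖u‖ = 1) (hv : ‖v‖ = 1) (h : 2 ≤ ‖u + v‖) {α β : ℝ}
    (hα : 0 ≤ α) (hβ : 0 ≤ β) : ‖α • u + β • v‖ = α + β := by
  have h1 := norm_add_le (α • u) (β • v)
  have e : (α + β) • (u + v) = (α • u + β • v) + (β • u + α • v) := by module
  have h2 := norm_add_le (α • u + β • v) (β • u + α • v)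
  have h3 := norm_add_le (β • u) (α • v)
  rw [← e, norm_smul, Real.norm_of_nonneg (add_nonneg hα hβ)] at h2
  rw [norm_smul, norm_smul, hu, hv, Real.norm_of_nonneg hα, Real.norm_of_nonneg hβ] at h1 h3
  nlinarith [mul_le_mul_of_nonneg_left h (add_nonneg hα hβ)]

theorem two_of_add {u v : E} (hu : ‖u‖ = 1) (hv : ‖v‖ = 1) {α β : ℝ} (hα : 0 < α) (hβ : 0 < β)
    (h : α + β ≤ ‖α • u + β • v‖) : 2 ≤ ‖u + v‖ := by
  rcases le_total α β with hle | hle
  · have e : α • u + β • v = α • (u + v) + (β - α) • v := by module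
    have h1 := norm_add_le (α • (u + v)) ((β - α) • v)
    rw [← e, norm_smul, norm_smul, hv, Real.norm_of_nonneg hα.le,
      Real.norm_of_nonneg (sub_nonneg.2 hle)] at h1
    exact le_of_mul_le_mul_left (by linarith) hα
  · have e : α • u + β • v = β • (u + v) + (α - β) • u := by module
    have h1 := norm_add_le (β • (u + v)) ((α - β) • u)
    rw [← e, norm_smul, norm_smul, hu, Real.norm_of_nonneg hβ.le,
      Real.norm_of_nonneg (sub_nonneg.2 hle)] at h1
    exact le_of_mul_le_mul_left (by linarith) hβ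

theorem exists_face {b : E} (hb : ‖b‖ = 1) : ∃ F : Set E, b ∈ F ∧ Convex ℝ F ∧
    (∀ a ∈ F, ‖a‖ = 1) ∧ ∀ v, ‖v‖ = 1 → (∀ a ∈ F, 2 ≤ ‖a + v‖) → v ∈ F := by
  obtain ⟨F, hF1, hF2⟩ := zorn_subset_nonempty {F : Set E | Convex ℝ F ∧ ∀ a ∈ F, ‖a‖ = 1}
    (fun c hc hch _ => ⟨⋃₀ c, ⟨hch.directedOn.convex_sUnion fun s hs => (hc hs).1,
      fun a ⟨s, hs, ha⟩ => (hc hs).2 a ha⟩, fun s hs => subset_sUnion_of_mem hs⟩) {b}
    ⟨convex_singleton b, fun a ha => by rw [mem_singleton_iff.1 ha, hb]⟩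
  refine ⟨F, hF1 rfl, hF2.prop.1, hF2.prop.2, fun v hv h => ?_⟩
  have h1 : convexJoin ℝ F {v} ⊆ F := by
    refine hF2.le_of_ge ⟨hF2.prop.1.convexJoin (convex_singleton v), fun w hw => ?_⟩
      (subset_convexJoin_left (singleton_nonempty v))
    obtain ⟨a, ha, v', hv', α, β, hα, hβ, hαβ, rfl⟩ := mem_convexJoin.1 hw
    rw [mem_singleton_iff.1 hv', add_of_two (hF2.prop.2 a ha) hv (h a ha) hα hβ, hαβ]
  exact h1 (subset_convexJoin_right ⟨b, hF1 rfl⟩ rfl)

end Geom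

variable {X Y : Type*} [SeminormedAddCommGroup X] [NormedSpace ℝ X]
  [SeminormedAddCommGroup Y] [NormedSpace ℝ Y]

/-- An isometric correspondence between two unit spheres with radial defect at most `M`. -/
structure Setup (R : X → Y → Prop) (M : ℝ) : Prop where
  n1 : ∀ x x', R x x' → ‖x‖ = 1
  n2 : ∀ x x', R x x' → ‖x'‖ = 1
  tot1 : ∀ x, ‖x‖ = 1 → ∃ x', R x x'
  tot2 : ∀ x', ‖x'‖ = 1 → ∃ x, R x x'
  iso : ∀ x x' z z', R x x' → R z z' → ‖x' - z'‖ = ‖x - z‖
  bd : ∀ x x' z z', R x x' → R z z' → ∀ q : ℝ, 0 ≤ q → q ≤ 1 →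
    |‖x' - q • z'‖ - ‖x - q • z‖| ≤ M

theorem Setup.symm {R : X → Y → Prop} {M : ℝ} (h : Setup R M) : Setup (fun y x => R x y) M where
  n1 _ _ r := h.n2 _ _ r
  n2 _ _ r := h.n1 _ _ r
  tot1 := h.tot2
  tot2 := h.tot1
  iso _ _ _ _ r s := (h.iso _ _ _ _ r s).symm
  bd _ _ _ _ r s q h0 h1 := by rw [abs_sub_comm]; exact h.bd _ _ _ _ r s q h0 h1

theorem Setup.bd_le {R : X → Y → Prop} {M : ℝ} (h : Setup R M) {x z : X} {x' z' : Y} (r : R x x')
    (s : R z z') {α β : ℝ} (hβ : 0 ≤ β) (hαβ : β ≤ α) :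
    |‖α • x' - β • z'‖ - ‖α • x - β • z‖| ≤ M * α := by
  rcases (hβ.trans hαβ).eq_or_lt with h0 | h0
  · have : β = 0 := le_antisymm (h0 ▸ hαβ) hβ
    simp [← h0, this]
  have h1 := h.bd _ _ _ _ r s (β / α) (div_nonneg hβ h0.le) ((div_le_one h0).2 hαβ)
  have e1 : α • x' - β • z' = α • (x' - (β / α) • z') := by
    rw [smul_sub, smul_smul, mul_div_cancel₀ _ h0.ne']
  have e2 : α • x - β • z = α • (x - (β / α) • z) := by
    rw [smul_sub, smul_smul, mul_div_cancel₀ _ h0.ne']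
  rw [e1, e2, norm_smul, norm_smul, Real.norm_of_nonneg h0.le, ← mul_sub, abs_mul, abs_of_pos h0,
    mul_comm]
  exact mul_le_mul_of_nonneg_right h1 h0.le

theorem Setup.bd_max {R : X → Y → Prop} {M : ℝ} (h : Setup R M) {x z : X} {x' z' : Y}
    (r : R x x') (s : R z z') {α β : ℝ} (hα : 0 ≤ α) (hβ : 0 ≤ β) :
    |‖α • x' - β • z'‖ - ‖α • x - β • z‖| ≤ M * max α β := by
  rcases le_total β α with hle | hle
  · rw [max_eq_left hle]; exact h.bd_le r s hβ hle
  · rw [max_eq_right hle, norm_sub_rev, norm_sub_rev (α • x)]; exact h.bd_le s r hα hle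

/-- An extremal chord through `t • y`, straight on the `Y` side, starting in direction `a`. -/
structure Cfg (R : X → Y → Prop) (M t : ℝ) (y : X) (y' : Y) (a : X) where
  p : ℝ
  q : ℝ
  b : X
  e : Y
  hp : 0 < p
  hq : 0 < q
  hb : ‖b‖ = 1
  he : ‖e‖ = 1
  rx : R (t • y + p • a) (t • y' + (p + M) • e)
  rz : R (t • y + (q + M) • (-b)) (t • y' + q • (-e))

section Main

variable {R : X → Y → Prop} {M t : ℝ} {y : X} {y' : Y}

theorem norm_center {E : Type*} [SeminormedAddCommGroup E] [NormedSpace ℝ E] {y : E}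
    (hy : ‖y‖ = 1) (ht0 : 0 < t) : ‖t • y‖ = t := by
  rw [norm_smul, hy, Real.norm_of_nonneg ht0.le, mul_one]

theorem exists_cfg (h : Setup R M) (hM : 0 < M) (ht0 : 0 < t) (ht1 : t < 1) (ry : R y y')
    {a : X} (ha : ‖a‖ = 1) {p : ℝ} (hp : 0 < p) {x' : Y} (rx : R (t • y + p • a) x')
    (hx : ‖x' - t • y'‖ = p + M) : Nonempty (Cfg R M t y y' a) := by
  have hp' : 0 < p + M := by positivity
  obtain ⟨e, he, rfl⟩ : ∃ e : Y, ‖e‖ = 1 ∧ x' = t • y' + (p + M) • e :=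
    ⟨(p + M)⁻¹ • (x' - t • y'), by
      rw [norm_smul, hx, norm_inv, Real.norm_of_nonneg hp'.le, inv_mul_cancel₀ hp'.ne'], by
      rw [smul_inv_smul₀ hp'.ne', add_sub_cancel]⟩
  obtain ⟨q, hq, hz'⟩ := exists_hit (c := t • y') (v := -e)
    (by rw [norm_center (h.n2 _ _ ry) ht0]; exact ht1) (by rw [norm_neg, he])
  obtain ⟨z, rz⟩ := h.tot2 _ hz'
  have h1 := h.iso _ _ _ _ rx rz
  have h2 := (abs_le.1 (h.bd _ _ _ _ rz ry t ht0.le ht1.le)).1
  have e1 : t • y' + (p + M) • e - (t • y' + q • -e) = (p + M + q) • e := by module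
  have e2 : t • y + p • a - z = p • a - (z - t • y) := by module
  have h3 := norm_sub_le (p • a) (z - t • y)
  rw [e1, e2, norm_smul, he, Real.norm_of_nonneg (by positivity)] at h1
  rw [add_sub_cancel_left, norm_smul, norm_neg, he, Real.norm_of_nonneg hq.le] at h2
  rw [norm_smul, ha, Real.norm_of_nonneg hp.le] at h3
  have h4 : ‖z - t • y‖ = q + M := by linarith
  have hq' : 0 < q + M := by positivity
  refine ⟨⟨p, q, -((q + M)⁻¹ • (z - t • y)), e, hp, hq, ?_, he, rx, ?_⟩⟩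
  · rw [norm_neg, norm_smul, h4, norm_inv, Real.norm_of_nonneg hq'.le, inv_mul_cancel₀ hq'.ne']
  · rwa [neg_neg, smul_inv_smul₀ hq'.ne', add_sub_cancel]

theorem Cfg.len (h : Setup R M) (hM : 0 < M) {a : X} (c : Cfg R M t y y' a) :
    ‖c.p • a + (c.q + M) • c.b‖ = c.p + (c.q + M) := by
  have h1 := h.iso _ _ _ _ c.rx c.rz
  have e1 : t • y' + (c.p + M) • c.e - (t • y' + c.q • -c.e) = (c.p + (c.q + M)) • c.e := by module
  have e2 : t • y + c.p • a - (t • y + (c.q + M) • -c.b) = c.p • a + (c.q + M) • c.b := by module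
  have := c.hp
  have := c.hq
  rw [e1, e2, norm_smul, c.he, Real.norm_of_nonneg (by positivity), mul_one] at h1
  exact h1.symm

theorem Cfg.two (h : Setup R M) (hM : 0 < M) {a : X} (ha : ‖a‖ = 1) (c : Cfg R M t y y' a) :
    2 ≤ ‖a + c.b‖ :=
  two_of_add ha c.hb c.hp (add_pos c.hq hM) (c.len h hM).ge

theorem Cfg.star (h : Setup R M) (hM : 0 < M) (ht0 : 0 < t) (ht1 : t < 1) (ry : R y y')
    {a₀ : X} (c : Cfg R M t y y' a₀) {a : X} (ha : ‖a‖ = 1) (h2 : 2 ≤ ‖a + c.b‖) :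
    Nonempty (Cfg R M t y y' a) := by
  obtain ⟨p, hp, hx⟩ := exists_hit (c := t • y) (v := a)
    (by rw [norm_center (h.n1 _ _ ry) ht0]; exact ht1) ha
  obtain ⟨x', rx⟩ := h.tot1 _ hx
  refine exists_cfg h hM ht0 ht1 ry ha hp rx ?_
  have h1 := h.iso _ _ _ _ rx c.rz
  have h3 := (abs_le.1 (h.bd _ _ _ _ rx ry t ht0.le ht1.le)).2
  have e1 : x' - (t • y' + c.q • -c.e) = x' - t • y' + c.q • c.e := by module
  have e2 : t • y + p • a - (t • y + (c.q + M) • -c.b) = p • a + (c.q + M) • c.b := by module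
  have h4 := norm_add_le (x' - t • y') (c.q • c.e)
  rw [e1, e2, add_of_two ha c.hb h2 hp.le (add_pos c.hq hM).le] at h1
  rw [add_sub_cancel_left, norm_smul, ha, Real.norm_of_nonneg hp.le] at h3
  rw [norm_smul, c.he, Real.norm_of_nonneg c.hq.le] at h4
  linarith

theorem Cfg.lip (h : Setup R M) (hM : 0 < M) (ht0 : 0 < t) (ht1 : t < 1) (ry : R y y')
    {a a' : X} (ha : ‖a‖ = 1) (ha' : ‖a'‖ = 1) (c : Cfg R M t y y' a) (c' : Cfg R M t y y' a') :
    ‖c.b - c'.b‖ ≤ 144 / (1 - t) ^ 4 * ‖a - a'‖ := by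
  have hc := norm_center (h.n1 _ _ ry) ht0
  have hc' := norm_center (h.n2 _ _ ry) ht0
  have hτ : 0 < 1 - t := by linarith
  have h1 := hit_lip hc ht1 ha ha' c.hp.le c'.hp.le (h.n1 _ _ c.rx) (h.n1 _ _ c'.rx)
  have h2 := h.iso _ _ _ _ c.rx c'.rx
  rw [add_sub_add_left_eq_sub, add_sub_add_left_eq_sub] at h2
  have h3 := dir_lip c.he c'.he hτ.le
    (hit_bounds hc' c.he (add_pos c.hp hM).le (h.n2 _ _ c.rx)).1 (add_pos c'.hp hM).le
  have h4 := hit_lip hc' ht1 (by rw [norm_neg, c.he]) (by rw [norm_neg, c'.he]) c.hq.le c'.hq.le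
    (h.n2 _ _ c.rz) (h.n2 _ _ c'.rz)
  have h5 := h.iso _ _ _ _ c.rz c'.rz
  rw [add_sub_add_left_eq_sub, add_sub_add_left_eq_sub] at h5
  have nb : ‖-c.b‖ = 1 := by rw [norm_neg, c.hb]
  have h6 := dir_lip nb (by rw [norm_neg, c'.hb] : ‖-c'.b‖ = 1) hτ.le
    (hit_bounds hc nb (add_pos c.hq hM).le (h.n1 _ _ c.rz)).1 (add_pos c'.hq hM).le
  rw [neg_sub_neg, norm_sub_rev c'.e] at h4
  rw [neg_sub_neg, norm_sub_rev c'.b, ← h5] at h6
  rw [h2] at h3
  rw [div_mul_eq_mul_div, le_div_iff₀ (by positivity)]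
  have k1 := mul_le_mul_of_nonneg_left h6 (by positivity : 0 ≤ (1 - t) ^ 3)
  have k2 := mul_le_mul_of_nonneg_left h4 (by positivity : 0 ≤ (1 - t) ^ 2)
  have k3 := mul_le_mul_of_nonneg_left h3 hτ.le
  nlinarith

theorem Cfg.false_of_aligned (h : Setup R M) (hM : 0 < M) (ht0 : 0 < t) (ht1 : t < 1)
    (ry : R y y') {a : X} (c : Cfg R M t y y' a)
    (al : ∀ α r : ℝ, 0 ≤ α → α ≤ 2 → |r| ≤ 1 →
      ‖α • a + r • y‖ ≤ ‖α • c.b + r • y‖ + M ^ 3 / 32) : False := by
  have hy := h.n1 _ _ ry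
  have hy' := h.n2 _ _ ry
  have nx := h.n1 _ _ c.rx
  have nx' := h.n2 _ _ c.rx
  have nz := h.n1 _ _ c.rz
  have nz' := h.n2 _ _ c.rz
  have hp := c.hp
  have hq := c.hq
  have hτ : 0 < 1 - t := by linarith
  have ne : ∀ s : ℝ, 0 ≤ s → ‖s • c.e‖ = s := fun s hs => by
    rw [norm_smul, c.he, Real.norm_of_nonneg hs, mul_one]
  refine scalar_false (prof_norm a hy) (prof_norm c.b hy) (prof_norm c.e hy') (p := c.p)
    (q' := c.q) (ε := M ^ 3 / 32) ht0 ht1 hM hp hq ?_ (by positivity)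
    (by have := pow_pos hM 3; linarith) (fun α σ hα hσ => ?_) (fun β s hβ hs => ?_) ?_ ?_ ?_ ?_ ?_
    ?_ ?_ ?_ ?_ al
  · have h1 := norm_sub_le (t • y' + (c.p + M) • c.e) (t • y' + c.q • -c.e)
    have e1 : t • y' + (c.p + M) • c.e - (t • y' + c.q • -c.e) = (c.p + c.q + M) • c.e := by module
    rw [e1, ne _ (by positivity), nx', nz'] at h1
    linarith
  · have h1 := (abs_le.1 (h.bd_max c.rx ry hα hσ)).2
    have e1 : α • (t • y' + (c.p + M) • c.e) - σ • y'
        = (α * (c.p + M)) • c.e + (α * t - σ) • y' := by module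
    have e2 : α • (t • y + c.p • a) - σ • y = (α * c.p) • a + (α * t - σ) • y := by module
    rw [e1, e2] at h1
    linarith
  · have h1 := (abs_le.1 (h.bd_max c.rz ry hβ hs)).1
    have e1 : β • (t • y' + c.q • -c.e) - s • y' = -((β * c.q) • c.e + (s - β * t) • y') := by
      module
    have e2 : β • (t • y + (c.q + M) • -c.b) - s • y
        = -((β * (c.q + M)) • c.b + (s - β * t) • y) := by module
    rw [e1, e2, norm_neg, norm_neg] at h1
    linarith
  · rw [add_comm]; exact nx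
  · rw [add_comm]; exact nx'
  · rw [← nz, ← norm_neg]; congr 1; module
  · rw [← nz', ← norm_neg]; congr 1; module
  · have h1 := h.iso _ _ _ _ c.rx ry
    have e1 : t • y' + (c.p + M) • c.e - y' = (c.p + M) • c.e + (-(1 - t)) • y' := by module
    have e2 : t • y + c.p • a - y = c.p • a + (-(1 - t)) • y := by module
    rw [e1, e2] at h1
    exact h1.symm
  · have h1 := h.iso _ _ _ _ ry c.rz
    have e1 : y' - (t • y' + c.q • -c.e) = c.q • c.e + (1 - t) • y' := by module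
    have e2 : y - (t • y + (c.q + M) • -c.b) = (c.q + M) • c.b + (1 - t) • y := by module
    rw [e1, e2] at h1
    exact h1.symm
  · have h1 := norm_add_le ((c.p + M) • c.e + (-(1 - t)) • y') (c.q • c.e + (1 - t) • y')
    have e1 : (c.p + M) • c.e + (-(1 - t)) • y' + (c.q • c.e + (1 - t) • y')
        = (c.p + c.q + M) • c.e := by module
    rwa [e1, ne _ (by positivity)] at h1
  · have h1 := norm_add_le (t • ((c.p + M) • c.e + (-(1 - t)) • y'))
      ((1 - t) • (t • y' + (c.p + M) • c.e))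
    have e1 : t • ((c.p + M) • c.e + (-(1 - t)) • y') + (1 - t) • (t • y' + (c.p + M) • c.e)
        = (c.p + M) • c.e := by module
    rwa [e1, ne _ (by positivity), norm_smul, norm_smul, nx', Real.norm_of_nonneg ht0.le,
      Real.norm_of_nonneg hτ.le, mul_one] at h1
  · have h0 := h.iso _ _ _ _ ry c.rz
    have e1 : y' - (t • y' + c.q • -c.e) = c.q • c.e + (1 - t) • y' := by module
    have h1 := norm_sub_le (t • (y - (t • y + (c.q + M) • -c.b)))
      ((1 - t) • (t • y + (c.q + M) • -c.b))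
    have e2 : t • (y - (t • y + (c.q + M) • -c.b)) - (1 - t) • (t • y + (c.q + M) • -c.b)
        = (c.q + M) • c.b := by module
    rwa [e2, norm_smul, norm_smul, norm_smul, nz, c.hb, ← h0, e1, Real.norm_of_nonneg ht0.le,
      Real.norm_of_nonneg hτ.le, Real.norm_of_nonneg (by positivity), mul_one, mul_one] at h1

theorem core_pos (h : Setup R M) (hM : 0 < M) (ht0 : 0 < t) (ht1 : t < 1) (ry : R y y')
    {x : X} {x' : Y} (rx : R x x') (hx : ‖x' - t • y'‖ - ‖x - t • y‖ = M) : False := by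
  classical
  have hy := h.n1 _ _ ry
  have hp : 0 < ‖x - t • y‖ := by
    have h1 := norm_sub_norm_le x (t • y)
    rw [h.n1 _ _ rx, norm_center hy ht0] at h1
    linarith
  obtain ⟨c₀⟩ := exists_cfg h hM ht0 ht1 ry (a := ‖x - t • y‖⁻¹ • (x - t • y))
    (by rw [norm_smul, norm_inv, norm_norm, inv_mul_cancel₀ hp.ne']) hp (x' := x')
    (by rwa [smul_inv_smul₀ hp.ne', add_sub_cancel]) (by linarith)
  obtain ⟨F, hb, hF, hF1, hmax⟩ := exists_face c₀.hb
  have two : ∀ a ∈ F, ∀ a' ∈ F, 2 ≤ ‖a + a'‖ := by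
    intro a ha a' ha'
    have h1 := hF1 _ (hF ha ha' (a := 1 / 2) (b := 1 / 2) (by norm_num) (by norm_num) (by norm_num))
    rw [← smul_add, norm_smul, Real.norm_of_nonneg (by norm_num)] at h1
    linarith
  have hcfg : ∀ a ∈ F, Nonempty (Cfg R M t y y' a) := fun a ha =>
    c₀.star h hM ht0 ht1 ry (hF1 a ha) (two a ha _ hb)
  let T : X → X := fun a => if ha : a ∈ F then (hcfg a ha).some.b else a
  have hT : ∀ a (ha : a ∈ F), T a = (hcfg a ha).some.b := fun a ha => dif_pos ha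
  set K := 144 / (1 - t) ^ 4 with hK
  have hK0 : 0 < K := div_pos (by norm_num) (pow_pos (by linarith) 4)
  have hlip : ∀ a ∈ F, ∀ a' ∈ F, ‖T a - T a'‖ ≤ K * ‖a - a'‖ := fun a ha a' ha' => by
    rw [hT a ha, hT a' ha']
    exact Cfg.lip h hM ht0 ht1 ry (hF1 a ha) (hF1 a' ha') _ _
  have hT1 : ∀ a ∈ F, ‖T a‖ = 1 := fun a ha => by rw [hT a ha]; exact Cfg.hb _
  have hT2 : ∀ a ∈ F, 2 ≤ ‖a + T a‖ := fun a ha => by
    rw [hT a ha]; exact Cfg.two h hM (hF1 a ha) _
  have hTF : ∀ a ∈ F, T a ∈ F := by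
    intro a ha
    refine hmax _ (hT1 a ha) fun g hg => le_of_forall_pos_le_add fun η hη => ?_
    obtain ⟨s, hs0, hs1, hs2⟩ : ∃ s : ℝ, 0 < s ∧ s ≤ 1 ∧ K * (s * 2) ≤ η :=
      ⟨min 1 (η / (2 * K)), lt_min one_pos (by positivity), min_le_left _ _, by
        have := min_le_right 1 (η / (2 * K))
        rw [le_div_iff₀ (by positivity)] at this
        linarith⟩
    have hm : (1 - s) • a + s • g ∈ F := hF ha hg (by linarith) hs0.le (by ring)
    set m := (1 - s) • a + s • g with hmd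
    have h1 := hT2 m hm
    have e1 : m + T m = (1 - s) • (a + T m) + s • (g + T m) := by rw [hmd]; module
    have h2 := norm_add_le ((1 - s) • (a + T m)) (s • (g + T m))
    have h3 := norm_add_le a (T m)
    rw [hF1 a ha, hT1 m hm] at h3
    rw [← e1, norm_smul, norm_smul, Real.norm_of_nonneg (by linarith),
      Real.norm_of_nonneg hs0.le] at h2
    have h4 : 2 ≤ ‖g + T m‖ :=
      le_of_mul_le_mul_left (by nlinarith [mul_le_mul_of_nonneg_left h3 (sub_nonneg.2 hs1)]) hs0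
    have h5 := hlip m hm a ha
    have e2 : m - a = s • (g - a) := by rw [hmd]; module
    have h6 := norm_sub_le g a
    rw [hF1 g hg, hF1 a ha] at h6
    rw [e2, norm_smul, Real.norm_of_nonneg hs0.le] at h5
    have h7 := norm_add_le (g + T a) (T m - T a)
    rw [show g + T a + (T m - T a) = g + T m by abel] at h7
    have h8 : K * (s * ‖g - a‖) ≤ K * (s * 2) := by gcongr; linarith
    linarith
  have hTc : ContinuousOn T F :=
    (LipschitzOnWith.of_dist_le' (K := K) fun a ha a' ha' => by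
      rw [dist_eq_norm, dist_eq_norm]; exact hlip a ha a' ha').continuousOn
  obtain ⟨a, ha, hal⟩ := exists_aligned hF ⟨_, hb⟩ hF1 hTF hTc hy (ε := M ^ 3 / 32) (by positivity)
  rw [hT a ha] at hal
  exact Cfg.false_of_aligned h hM ht0 ht1 ry _ hal

/-- If the maximal radial defect is attained, it vanishes. -/
theorem core (h : Setup R M) (hM : 0 < M) (ht0 : 0 ≤ t) (ht1 : t ≤ 1) (ry : R y y')
    {x : X} {x' : Y} (rx : R x x') (hx : |‖x' - t • y'‖ - ‖x - t • y‖| = M) : False := by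
  rcases ht0.eq_or_lt with h0 | h0
  · rw [← h0, zero_smul, zero_smul, sub_zero, sub_zero, h.n1 _ _ rx, h.n2 _ _ rx] at hx
    simp only [sub_self, abs_zero] at hx
    exact hM.ne hx
  rcases ht1.eq_or_lt with h1 | h1
  · rw [h1, one_smul, one_smul, h.iso _ _ _ _ rx ry] at hx
    simp only [sub_self, abs_zero] at hx
    exact hM.ne hx
  rcases (abs_eq hM.le).1 hx with h2 | h2
  · exact core_pos h hM h0 h1 ry rx h2
  · exact core_pos h.symm hM h0 h1 ry rx (by linarith)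

end Main

end Vale.Agent.P084
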