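import Vale.Agent.P084.Ultra

/-!
P084: the radial extension of a sphere isometry is an isometry; Mazur-Ulam finishes the proof.
-/

namespace Vale.Agent.P084

open Set Metric

variable {X Y : Type*} [NormedAddCommGroup X] [NormedSpace ℝ X]
  [NormedAddCommGroup Y] [NormedSpace ℝ Y]

theorem unit_mem {x : X} (hx : x ≠ 0) : ‖x‖⁻¹ • x ∈ sphere (0 : X) 1 := by
  rw [mem_sphere_zero_iff_norm, norm_smul, norm_inv, norm_norm,
    inv_mul_cancel₀ (norm_ne_zero_iff.2 hx)]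

theorem setup_of_isometry (f : sphere (0 : X) 1 → sphere (0 : Y) 1) (hf : Isometry f)
    (hs : Function.Surjective f) :
    Setup (fun (x : X) (y : Y) => ∃ hx : x ∈ sphere (0 : X) 1, (f ⟨x, hx⟩ : Y) = y) 2 := by
  refine ⟨fun x y ⟨hx, _⟩ => mem_sphere_zero_iff_norm.1 hx,
    fun x y ⟨hx, e⟩ => e ▸ norm_eq_of_mem_sphere _,
    fun x hx => ⟨_, mem_sphere_zero_iff_norm.2 hx, rfl⟩, fun y hy => ?_, ?_, ?_⟩
  · obtain ⟨x, hx⟩ := hs ⟨y, mem_sphere_zero_iff_norm.2 hy⟩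
    exact ⟨x, x.2, congrArg Subtype.val hx⟩
  · rintro x _ z _ ⟨hx, rfl⟩ ⟨hz, rfl⟩
    have := hf.dist_eq ⟨x, hx⟩ ⟨z, hz⟩
    rwa [Subtype.dist_eq, Subtype.dist_eq, dist_eq_norm, dist_eq_norm] at this
  · rintro x _ z _ ⟨hx, rfl⟩ ⟨hz, rfl⟩ q h0 h1
    have a1 := norm_sub_le (f ⟨x, hx⟩ : Y) (q • (f ⟨z, hz⟩ : Y))
    have a2 := norm_sub_le x (q • z)
    rw [norm_smul, norm_eq_of_mem_sphere, norm_eq_of_mem_sphere, Real.norm_of_nonneg h0] at a1
    rw [norm_smul, mem_sphere_zero_iff_norm.1 hx, mem_sphere_zero_iff_norm.1 hz,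
      Real.norm_of_nonneg h0] at a2
    rw [abs_le]
    constructor
    · linarith [norm_nonneg ((f ⟨x, hx⟩ : Y) - q • (f ⟨z, hz⟩ : Y))]
    · linarith [norm_nonneg (x - q • z)]

theorem radial_iso (f : sphere (0 : X) 1 → sphere (0 : Y) 1) (hf : Isometry f)
    (hs : Function.Surjective f) (x z : sphere (0 : X) 1) {α β : ℝ} (hα : 0 ≤ α) (hβ : 0 ≤ β) :
    ‖α • (f x : Y) - β • (f z : Y)‖ = ‖α • (x : X) - β • (z : X)‖ := by
  have := (setup_of_isometry f hf hs).zero.bd_max ⟨x.2, rfl⟩ ⟨z.2, rfl⟩ hα hβ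
  rw [zero_mul, abs_nonpos_iff, sub_eq_zero] at this
  exact this

open Classical in
/-- The positively homogeneous extension of a map between unit spheres. -/
noncomputable def radial (f : sphere (0 : X) 1 → sphere (0 : Y) 1) (x : X) : Y :=
  if hx : x = 0 then 0 else ‖x‖ • (f ⟨‖x‖⁻¹ • x, unit_mem hx⟩ : Y)

theorem radial_zero (f : sphere (0 : X) 1 → sphere (0 : Y) 1) : radial f 0 = 0 := dif_pos rfl

theorem radial_smul (f : sphere (0 : X) 1 → sphere (0 : Y) 1) (x : sphere (0 : X) 1) {α : ℝ}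
    (hα : 0 ≤ α) : radial f (α • (x : X)) = α • (f x : Y) := by
  rcases hα.eq_or_lt with h | h
  · rw [← h, zero_smul, zero_smul, radial_zero]
  have hn : ‖α • (x : X)‖ = α := by
    rw [norm_smul, norm_eq_of_mem_sphere, Real.norm_of_nonneg hα, mul_one]
  have h0 : α • (x : X) ≠ 0 := norm_ne_zero_iff.1 (by rw [hn]; exact h.ne')
  rw [radial, dif_neg h0]
  congr 3
  exact Subtype.ext (by simp only [hn, inv_smul_smul₀ h.ne'])

theorem exists_polar {E : Type*} [NormedAddCommGroup E] [NormedSpace ℝ E]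
    (e : sphere (0 : E) 1) (x : E) : ∃ (u : sphere (0 : E) 1) (α : ℝ), 0 ≤ α ∧ x = α • (u : E) := by
  by_cases hx : x = 0
  · exact ⟨e, 0, le_rfl, by rw [hx, zero_smul]⟩
  · exact ⟨⟨_, unit_mem hx⟩, ‖x‖, norm_nonneg x, (smul_inv_smul₀ (norm_ne_zero_iff.2 hx) x).symm⟩

theorem tingley [Nontrivial X] (f : sphere (0 : X) 1 → sphere (0 : Y) 1) (hf : Isometry f)
    (hs : Function.Surjective f) :
    ∃! T : X ≃ₗᵢ[ℝ] Y, ∀ x : sphere (0 : X) 1, T x = f x := by
  obtain ⟨x₀, hx₀⟩ := exists_ne (0 : X)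
  let e : sphere (0 : X) 1 := ⟨_, unit_mem hx₀⟩
  have hiso : Isometry (radial f) := Isometry.of_dist_eq fun x z => by
    obtain ⟨u, α, hα, rfl⟩ := exists_polar e x
    obtain ⟨v, β, hβ, rfl⟩ := exists_polar e z
    rw [radial_smul f u hα, radial_smul f v hβ, dist_eq_norm, dist_eq_norm,
      radial_iso f hf hs u v hα hβ]
  have hsurj : Function.Surjective (radial f) := fun y => by
    obtain ⟨u, α, hα, rfl⟩ := exists_polar (f e) y
    obtain ⟨v, rfl⟩ := hs u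
    exact ⟨_, radial_smul f v hα⟩
  let g : X ≃ᵢ Y := ⟨Equiv.ofBijective _ ⟨hiso.injective, hsurj⟩, hiso⟩
  refine ⟨g.toRealLinearIsometryEquivOfMapZero (radial_zero f), fun x => ?_, fun T hT => ?_⟩
  · have := radial_smul f x zero_le_one
    rw [one_smul, one_smul] at this
    exact this
  · ext x
    obtain ⟨u, α, hα, rfl⟩ := exists_polar e x
    rw [map_smul, hT u]
    exact (radial_smul f u hα).symm

end Vale.Agent.P084
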