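import Mathlib

/-!
P084 (Tingley's problem): the scalar inequalities for an (almost) aligned extremal chord.
-/

namespace Vale.Agent.P084

/-- The properties of `(α, r) ↦ ‖α • v + r • y‖` (with `‖y‖ = 1`) that are used. -/
structure Prof (H : ℝ → ℝ → ℝ) : Prop where
  hom : ∀ c α r : ℝ, 0 ≤ c → H (c * α) (c * r) = c * H α r
  conv : ∀ α₁ α₂ r : ℝ, 0 ≤ α₁ → α₁ ≤ α₂ → α₂ * H α₁ r ≤ (α₂ - α₁) * |r| + α₁ * H α₂ r

theorem Prof.slope {H : ℝ → ℝ → ℝ} (h : Prof H) {α₀ α₁ α₂ : ℝ} (r : ℝ) (h0 : 0 ≤ α₀)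
    (h02 : α₀ ≤ α₂) (h1 : 0 ≤ α₁) (h12 : α₁ < α₂) :
    (α₂ - α₁) * (H α₀ r - |r|) ≤ α₀ * (H α₂ r - H α₁ r) := by
  have a0 := h.conv α₀ α₂ r h0 h02
  have a1 := h.conv α₁ α₂ r h1 h12.le
  have h2 : 0 < α₂ := h1.trans_lt h12
  have b0 := mul_le_mul_of_nonneg_left a0 (sub_nonneg.2 h12.le)
  have b1 := mul_le_mul_of_nonneg_left a1 h0
  refine le_of_mul_le_mul_left ?_ h2
  nlinarith

/-- The final arithmetic. -/
theorem arith_false {t M p q' δ₀ δ₁ η : ℝ} (ht0 : 0 < t) (ht1 : t < 1) (hM : 0 < M) (hp : 0 < p)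
    (hq : 0 < q') (hd : p + q' + M ≤ 2) (hη0 : 0 ≤ η) (hη : 4 * η < M ^ 2)
    (htri : p + q' + M ≤ δ₀ + δ₁) (l0 : p + M ≤ t * δ₀ + (1 - t))
    (l1 : q' + M ≤ t * δ₁ + (1 - t))
    (ia : p ≤ t * (p + q' + M) →
      δ₁ * (p + q' + M) ≤ (1 - t) * (p + q' + M) + (q' + M) * q' + η)
    (ic : q' ≤ t * (p + q' + M) →
      δ₀ * (p + q' + M) ≤ (1 - t) * (p + q' + M) + p * (p + M) + η)
    (iA : p + M ≤ t * (p + q' + M) → (1 - t) * (p + q' + M) ≤ p * q' + η)
    (iC : q' + M ≤ t * (p + q' + M) → (1 - t) * (p + q' + M) ≤ p * q' + η)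
    (ib : t * (p + q' + M) ≤ p + M → (1 - t) * (p + q' + M) ≤ p * (p + M) + η)
    (id' : t * (p + q' + M) ≤ q' + M → (1 - t) * (p + q' + M) ≤ (q' + M) * q' + η) : False := by
  set d := p + q' + M with hdd
  have hd0 : 0 < d := by positivity
  have hMd : M ^ 2 ≤ M * d := by nlinarith
  have both : p ≤ t * d → q' ≤ t * d → p * q' + (q' + M) * (p + M) ≤ 2 * ((1 - t) * d) + 2 * η := by
    intro h1 h2
    have a1 := ia h1
    have a2 := ic h2
    have a3 := mul_le_mul_of_nonneg_right htri hd0.le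
    have a4 : d * d = p * (p + M) + p * q' + (q' + M) * (p + M) + (q' + M) * q' := by
      rw [hdd]; ring
    linarith
  have e1 : (q' + M) * (p + M) = p * q' + M * d := by rw [hdd]; ring
  by_cases c1 : p + M ≤ t * d
  · have hA := iA c1
    by_cases c2 : q' ≤ t * d
    · have := both (by linarith) c2
      linarith
    · have a1 := mul_le_mul_of_nonneg_left (ia (by linarith)) ht0.le
      have a2 := mul_le_mul_of_nonneg_right l1 hd0.le
      have a3 := mul_le_mul_of_nonneg_left hA ht0.le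
      have a4 : t * d * q' ≤ q' * q' := mul_le_mul_of_nonneg_right (not_le.1 c2).le hq.le
      have a5 : t * η ≤ η := by nlinarith
      have a6 : (q' + M) * d = p * q' + M * d + q' * q' + M * q' := by rw [hdd]; ring
      have a7 : t * d * q' = t * ((q' + M) * q') + t * (p * q') := by rw [hdd]; ring
      have a8 : 0 < M * q' := by positivity
      nlinarith
  by_cases c3 : q' + M ≤ t * d
  · have hC := iC c3
    by_cases c2 : p ≤ t * d
    · have := both c2 (by linarith)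
      linarith
    · have a1 := mul_le_mul_of_nonneg_left (ic (by linarith)) ht0.le
      have a2 := mul_le_mul_of_nonneg_right l0 hd0.le
      have a3 := mul_le_mul_of_nonneg_left hC ht0.le
      have a4 : t * d * p ≤ p * p := mul_le_mul_of_nonneg_right (not_le.1 c2).le hp.le
      have a5 : t * η ≤ η := by nlinarith
      have a6 : (p + M) * d = p * q' + M * d + p * p + M * p := by rw [hdd]; ring
      have a7 : t * d * p = t * (p * (p + M)) + t * (p * q') := by rw [hdd]; ring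
      have a8 : 0 < M * p := by positivity
      nlinarith
  have hb := ib (not_le.1 c1).le
  have hd' := id' (not_le.1 c3).le
  by_cases c4 : p ≤ t * d ∧ q' ≤ t * d
  · have a1 := both c4.1 c4.2
    rcases le_total p q' with h | h
    · nlinarith [mul_nonneg (sub_nonneg.2 h) hp.le, mul_nonneg (sub_nonneg.2 h) hM.le]
    · nlinarith [mul_nonneg (sub_nonneg.2 h) hq.le, mul_nonneg (sub_nonneg.2 h) hM.le]
  · have a1 : 2 * (t * d) ≤ d := by
      rw [not_and_or, not_le, not_le] at c4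
      rcases c4 with h | h
      · linarith [not_le.1 c3]
      · linarith [not_le.1 c1]
    have a2 : d * d ≤ 2 * d := mul_le_mul_of_nonneg_right hd hd0.le
    rcases le_total p q' with h | h
    · have a3 : (2 * p + M) * (2 * p + M) ≤ d * d :=
        mul_self_le_mul_self (by positivity) (by linarith)
      nlinarith
    · have a3 : (2 * q' + M) * (2 * q' + M) ≤ d * d :=
        mul_self_le_mul_self (by positivity) (by linarith)
      nlinarith

section Ineq

variable {A B C : ℝ → ℝ → ℝ} {t M p q' ε δ : ℝ}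

theorem ineq_a (hA : Prof A) (hC : Prof C) (ht1 : t < 1) (hM : 0 < M) (hp : 0 < p) (hq : 0 < q')
    (Lp : ∀ α σ : ℝ, 0 ≤ α → 0 ≤ σ →
      C (α * (p + M)) (α * t - σ) ≤ A (α * p) (α * t - σ) + M * max α σ)
    (hδ : C q' (1 - t) = δ) (al : A (q' + M) (1 - t) ≤ δ + ε) (h : p ≤ t * (p + q' + M)) :
    M * (δ * (p + q' + M)) ≤ M * ((1 - t) * (p + q' + M) + (q' + M) * q') + p * q' * ε := by
  have hτ : 0 < 1 - t := by linarith
  have h1 := Lp (q' + M) (t * (q' + M) - (1 - t) * p) (by positivity) (by linarith)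
  rw [max_eq_left (by nlinarith), show (q' + M) * t - (t * (q' + M) - (1 - t) * p) = p * (1 - t)
    by ring, mul_comm (q' + M) p, hA.hom p _ _ hp.le] at h1
  have h2 := hC.conv (p * q') ((q' + M) * (p + M)) (p * (1 - t)) (by positivity) (by nlinarith)
  rw [hC.hom p _ _ hp.le, abs_of_pos (by positivity), hδ] at h2
  have h3 : C ((q' + M) * (p + M)) (p * (1 - t)) ≤ p * (δ + ε) + M * (q' + M) := by
    linarith [mul_le_mul_of_nonneg_left al hp.le]
  have h4 := mul_le_mul_of_nonneg_left h3 (by positivity : 0 ≤ p * q')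
  refine le_of_mul_le_mul_left ?_ hp
  linarith

theorem ineq_c (hB : Prof B) (hC : Prof C) (ht1 : t < 1) (hM : 0 < M) (hp : 0 < p) (hq : 0 < q')
    (Lm : ∀ β s : ℝ, 0 ≤ β → 0 ≤ s →
      B (β * (q' + M)) (s - β * t) ≤ C (β * q') (s - β * t) + M * max β s)
    (hδ : C (p + M) (-(1 - t)) = δ) (al : δ ≤ B p (-(1 - t)) + ε)
    (h : q' ≤ t * (p + q' + M)) :
    M * (δ * (p + q' + M)) ≤
      M * ((1 - t) * (p + q' + M) + p * (p + M)) + (p + M) * (q' + M) * ε := by
  have hτ : 0 < 1 - t := by linarith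
  have h1 := Lm (p + M) (t * (p + M) - (1 - t) * q') (by positivity) (by linarith)
  rw [max_eq_left (by nlinarith), show t * (p + M) - (1 - t) * q' - (p + M) * t
    = q' * (-(1 - t)) by ring, mul_comm (p + M) q', hC.hom q' _ _ hq.le, hδ] at h1
  have h2 := hB.conv (q' * p) ((p + M) * (q' + M)) (q' * (-(1 - t))) (by positivity)
    (by nlinarith)
  rw [hB.hom q' _ _ hq.le, abs_mul, abs_neg, abs_of_pos hq, abs_of_pos hτ] at h2
  have h3 := mul_le_mul_of_nonneg_left h1 (by positivity : 0 ≤ q' * p)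
  have h4 := mul_le_mul_of_nonneg_left al (by positivity : 0 ≤ (p + M) * (q' + M) * q')
  refine le_of_mul_le_mul_left ?_ hq
  linarith

theorem ineq_A (hA : Prof A) (hC : Prof C) (ht0 : 0 < t) (ht1 : t < 1) (hM : 0 < M) (hp : 0 < p)
    (hq : 0 < q')
    (Lp : ∀ α σ : ℝ, 0 ≤ α → 0 ≤ σ →
      C (α * (p + M)) (α * t - σ) ≤ A (α * p) (α * t - σ) + M * max α σ)
    (xA : A p t = 1) (hδ : C q' (1 - t) = δ) (al : A (q' + M) (1 - t) ≤ δ + ε)
    (h : p + M ≤ t * (p + q' + M)) :
    M * ((1 - t) * (p + q' + M)) ≤ M * (p * q') + p * (p + M) * ε := by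
  have hτ : 0 < 1 - t := by linarith
  have h1 := Lp (t * q') (t * (t * q' - (1 - t) * (p + M))) (by positivity)
    (mul_nonneg ht0.le (by linarith))
  rw [max_eq_left (mul_le_mul_of_nonneg_left (by nlinarith) ht0.le),
    show t * q' * t - t * (t * q' - (1 - t) * (p + M)) = t * (p + M) * (1 - t) by ring,
    show t * q' * (p + M) = t * (p + M) * q' by ring, hC.hom _ _ _ (by positivity), hδ] at h1
  have k1 : (1 - t) * p ≤ t * (q' + M) := by linarith
  have k2 : 0 < t * (M * (p + q' + M)) := by positivity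
  have h2 := hA.slope (α₀ := (1 - t) * (p + M) * p) (α₁ := t * q' * p)
    (α₂ := t * (p + M) * (q' + M)) (t * (p + M) * (1 - t)) (by positivity)
    (by linarith [mul_le_mul_of_nonneg_left k1 (by positivity : 0 ≤ p + M)]) (by positivity)
    (by linarith)
  rw [hA.hom (t * (p + M)) _ _ (by positivity), abs_of_pos (by positivity),
    show t * (p + M) * (1 - t) = (1 - t) * (p + M) * t by ring,
    hA.hom ((1 - t) * (p + M)) _ _ (by positivity), xA,
    show (1 - t) * (p + M) * t = t * (p + M) * (1 - t) by ring] at h2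
  have h3 : t * (p + M) * A (q' + M) (1 - t) - A (t * q' * p) (t * (p + M) * (1 - t))
      ≤ t * ((p + M) * ε + M * q') := by
    linarith [mul_le_mul_of_nonneg_left al (by positivity : 0 ≤ t * (p + M))]
  have h4 := h2.trans (mul_le_mul_of_nonneg_left h3 (by positivity))
  refine le_of_mul_le_mul_left ?_ (by positivity : 0 < t * (1 - t) * (p + M))
  linarith

theorem ineq_C (hB : Prof B) (hC : Prof C) (ht0 : 0 < t) (ht1 : t < 1) (hM : 0 < M) (hp : 0 < p)
    (hq : 0 < q')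
    (Lm : ∀ β s : ℝ, 0 ≤ β → 0 ≤ s →
      B (β * (q' + M)) (s - β * t) ≤ C (β * q') (s - β * t) + M * max β s)
    (zC : C q' (-t) = 1) (hδ : C (p + M) (-(1 - t)) = δ) (al : δ ≤ B p (-(1 - t)) + ε)
    (h : q' + M ≤ t * (p + q' + M)) :
    M * ((1 - t) * (p + q' + M)) ≤ M * (p * q') + q' * (q' + M) * ε := by
  have hτ : 0 < 1 - t := by linarith
  have h1 := Lm (t * p) (t * (t * p - (1 - t) * (q' + M))) (by positivity)
    (mul_nonneg ht0.le (by linarith))
  rw [max_eq_left (mul_le_mul_of_nonneg_left (by nlinarith) ht0.le),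
    show t * (t * p - (1 - t) * (q' + M)) - t * p * t = t * (q' + M) * (-(1 - t)) by ring,
    show t * p * (q' + M) = t * (q' + M) * p by ring, hB.hom _ _ _ (by positivity)] at h1
  have k1 : (1 - t) * q' ≤ t * (p + M) := by linarith
  have k2 : 0 < t * (M * (p + q' + M)) := by positivity
  have h2 := hC.slope (α₀ := (1 - t) * (q' + M) * q') (α₁ := t * p * q')
    (α₂ := t * (q' + M) * (p + M)) (t * (q' + M) * (-(1 - t))) (by positivity)
    (by linarith [mul_le_mul_of_nonneg_left k1 (by positivity : 0 ≤ q' + M)]) (by positivity)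
    (by linarith)
  rw [hC.hom (t * (q' + M)) _ _ (by positivity), hδ, abs_mul, abs_neg, abs_of_pos hτ,
    abs_of_pos (by positivity),
    show t * (q' + M) * (-(1 - t)) = (1 - t) * (q' + M) * (-t) by ring,
    hC.hom ((1 - t) * (q' + M)) _ _ (by positivity), zC,
    show (1 - t) * (q' + M) * (-t) = t * (q' + M) * (-(1 - t)) by ring] at h2
  have h3 : t * (q' + M) * δ - C (t * p * q') (t * (q' + M) * (-(1 - t)))
      ≤ t * ((q' + M) * ε + M * p) := by
    linarith [mul_le_mul_of_nonneg_left al (by positivity : 0 ≤ t * (q' + M))]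
  have h4 := h2.trans (mul_le_mul_of_nonneg_left h3 (by positivity))
  refine le_of_mul_le_mul_left ?_ (by positivity : 0 < t * (1 - t) * (q' + M))
  linarith

theorem ineq_b (hB : Prof B) (hC : Prof C) (ht0 : 0 < t) (hM : 0 < M) (hp : 0 < p) (hq : 0 < q')
    (Lm : ∀ β s : ℝ, 0 ≤ β → 0 ≤ s →
      B (β * (q' + M)) (s - β * t) ≤ C (β * q') (s - β * t) + M * max β s)
    (xC : C (p + M) t = 1) (al : 1 ≤ B p t + ε) (h : t * (p + q' + M) ≤ p + M) :
    M * ((1 - t) * (p + q' + M)) ≤ M * (p * (p + M)) + (p + M) * (q' + M) * ε := by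
  have h1 := Lm (p + M) (t * (p + q' + M)) (by positivity) (by positivity)
  rw [max_eq_left h, show t * (p + q' + M) - (p + M) * t = q' * t by ring, mul_comm (p + M) q',
    hC.hom q' _ _ hq.le, xC] at h1
  have h2 := hB.conv (q' * p) ((p + M) * (q' + M)) (q' * t) (by positivity) (by nlinarith)
  rw [hB.hom q' _ _ hq.le, abs_of_pos (by positivity)] at h2
  have h3 := mul_le_mul_of_nonneg_left h1 (by positivity : 0 ≤ q' * p)
  have h4 := mul_le_mul_of_nonneg_left al (by positivity : 0 ≤ (p + M) * (q' + M) * q')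
  refine le_of_mul_le_mul_left ?_ hq
  linarith

theorem ineq_d (hA : Prof A) (hC : Prof C) (ht0 : 0 < t) (hM : 0 < M) (hp : 0 < p) (hq : 0 < q')
    (Lp : ∀ α σ : ℝ, 0 ≤ α → 0 ≤ σ →
      C (α * (p + M)) (α * t - σ) ≤ A (α * p) (α * t - σ) + M * max α σ)
    (zC : C q' (-t) = 1) (al : A (q' + M) (-t) ≤ 1 + ε) (h : t * (p + q' + M) ≤ q' + M) :
    M * ((1 - t) * (p + q' + M)) ≤ M * ((q' + M) * q') + p * q' * ε := by
  have h1 := Lp (q' + M) (t * (p + q' + M)) (by positivity) (by positivity)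
  rw [max_eq_left h, show (q' + M) * t - t * (p + q' + M) = p * (-t) by ring,
    mul_comm (q' + M) p, hA.hom p _ _ hp.le] at h1
  have h2 := hC.conv (p * q') ((q' + M) * (p + M)) (p * (-t)) (by positivity) (by nlinarith)
  rw [hC.hom p _ _ hp.le, zC, abs_mul, abs_neg, abs_of_pos hp, abs_of_pos ht0] at h2
  have h3 : C ((q' + M) * (p + M)) (p * (-t)) ≤ p * (1 + ε) + M * (q' + M) := by
    linarith [mul_le_mul_of_nonneg_left al hp.le]
  have h4 := mul_le_mul_of_nonneg_left h3 (by positivity : 0 ≤ p * q')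
  refine le_of_mul_le_mul_left ?_ hp
  linarith

theorem ineq_div {u v k : ℝ} (hM : 0 < M) (hε : 0 ≤ ε) (hk : k ≤ 4) (h : M * u ≤ M * v + k * ε) :
    u ≤ v + 4 * ε / M := by
  refine le_of_mul_le_mul_left ?_ hM
  have h1 : M * (4 * ε / M) = 4 * ε := by field_simp
  have h2 := mul_le_mul_of_nonneg_right hk hε
  linarith

/-- An almost aligned extremal chord is impossible. -/
theorem scalar_false (hA : Prof A) (hB : Prof B) (hC : Prof C)
    (ht0 : 0 < t) (ht1 : t < 1) (hM : 0 < M) (hp : 0 < p)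
    (hq : 0 < q') (hd : p + q' + M ≤ 2) (hε0 : 0 ≤ ε) (hε : 16 * ε < M ^ 3)
    (Lp : ∀ α σ : ℝ, 0 ≤ α → 0 ≤ σ →
      C (α * (p + M)) (α * t - σ) ≤ A (α * p) (α * t - σ) + M * max α σ)
    (Lm : ∀ β s : ℝ, 0 ≤ β → 0 ≤ s →
      B (β * (q' + M)) (s - β * t) ≤ C (β * q') (s - β * t) + M * max β s)
    (xA : A p t = 1) (xC : C (p + M) t = 1) (zB : B (q' + M) (-t) = 1) (zC : C q' (-t) = 1)
    (d0 : A p (-(1 - t)) = C (p + M) (-(1 - t))) (d1 : B (q' + M) (1 - t) = C q' (1 - t))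
    (htri : p + q' + M ≤ C (p + M) (-(1 - t)) + C q' (1 - t))
    (l0 : p + M ≤ t * C (p + M) (-(1 - t)) + (1 - t))
    (l1 : q' + M ≤ t * C q' (1 - t) + (1 - t))
    (al : ∀ α r : ℝ, 0 ≤ α → α ≤ 2 → |r| ≤ 1 → A α r ≤ B α r + ε) : False := by
  have hτ : 0 < 1 - t := by linarith
  have hq' : 0 < q' + M := by positivity
  have al1 := al p t hp.le (by linarith) (by rw [abs_of_pos ht0]; linarith)
  have al2 := al p (-(1 - t)) hp.le (by linarith) (by rw [abs_neg, abs_of_pos hτ]; linarith)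
  have al3 := al (q' + M) (1 - t) hq'.le (by linarith) (by rw [abs_of_pos hτ]; linarith)
  have al4 := al (q' + M) (-t) hq'.le (by linarith) (by rw [abs_neg, abs_of_pos ht0]; linarith)
  rw [xA] at al1
  rw [d0] at al2
  rw [d1] at al3
  rw [zB] at al4
  have b : ∀ u v : ℝ, 0 ≤ v → u ≤ 2 → v ≤ 2 → u * v ≤ 4 := fun u v h1 h2 h3 => by nlinarith
  have b3 := b p q' hq.le (by linarith) (by linarith)
  have b4 := b (p + M) (q' + M) hq'.le (by linarith) (by linarith)
  have b5 := b p (p + M) (by positivity) (by linarith) (by linarith)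
  have b6 := b q' (q' + M) hq'.le (by linarith) (by linarith)
  exact arith_false (η := 4 * ε / M) ht0 ht1 hM hp hq hd (by positivity)
    (by rw [← mul_div_assoc, div_lt_iff₀ hM]; linarith) htri l0 l1
    (fun h => ineq_div hM hε0 b3 (ineq_a hA hC ht1 hM hp hq Lp rfl al3 h))
    (fun h => ineq_div hM hε0 b4 (ineq_c hB hC ht1 hM hp hq Lm rfl al2 h))
    (fun h => ineq_div hM hε0 b5 (ineq_A hA hC ht0 ht1 hM hp hq Lp xA rfl al3 h))
    (fun h => ineq_div hM hε0 b6 (ineq_C hB hC ht0 ht1 hM hp hq Lm zC rfl al2 h))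
    (fun h => ineq_div hM hε0 b4 (ineq_b hB hC ht0 hM hp hq Lm xC al1 h))
    (fun h => ineq_div hM hε0 b3 (ineq_d hA hC ht0 hM hp hq Lp zC al4 h))

end Ineq

end Vale.Agent.P084
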