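import Vale.Agent.P084.Core

/-!
P084: passing to an ultrapower, the maximal radial defect is attained; hence it vanishes.
-/

namespace Vale.Agent.P084

open Set Filter Topology

/-- The fixed free ultrafilter on the natural numbers, as a filter. -/
noncomputable def UU : Filter ℕ := (hyperfilter ℕ : Filter ℕ)

theorem UU_neBot : UU.NeBot := (hyperfilter ℕ).neBot

theorem UU_le : UU ≤ atTop := by
  rw [← Nat.cofinite_eq_atTop]
  exact hyperfilter_le_cofinite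

theorem exists_UU_lim {u : ℕ → ℝ} {a b : ℝ} (h : ∀ n, u n ∈ Icc a b) :
    ∃ l ∈ Icc a b, Tendsto u UU (𝓝 l) :=
  isCompact_Icc.ultrafilter_le_nhds ((hyperfilter ℕ).map u) (by
    rw [Ultrafilter.coe_map, le_principal_iff, mem_map]
    exact univ_mem' h)

section Space

variable (X : Type*) [SeminormedAddCommGroup X] [NormedSpace ℝ X]

/-- Bounded sequences. -/
def bdd : Submodule ℝ (ℕ → X) where
  carrier := {u | ∃ C : ℝ, ∀ n, ‖u n‖ ≤ C}
  zero_mem' := ⟨0, fun n => by simp⟩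
  add_mem' := fun ⟨C, hC⟩ ⟨D, hD⟩ =>
    ⟨C + D, fun n => (norm_add_le _ _).trans (add_le_add (hC n) (hD n))⟩
  smul_mem' := fun c _ ⟨C, hC⟩ => ⟨‖c‖ * C, fun n => by
    rw [Pi.smul_apply, norm_smul]
    exact mul_le_mul_of_nonneg_left (hC n) (norm_nonneg c)⟩

/-- Bounded sequences, to be equipped with the ultralimit seminorm. -/
def UP : Type _ := bdd X

instance : AddCommGroup (UP X) := inferInstanceAs (AddCommGroup (bdd X))

instance : Module ℝ (UP X) := inferInstanceAs (Module ℝ (bdd X))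

variable {X}

/-- The underlying sequence. -/
def UP.seq (u : UP X) : ℕ → X := Subtype.val u

/-- A bounded sequence as an element of the ultrapower. -/
def UP.mk (u : ℕ → X) (C : ℝ) (h : ∀ n, ‖u n‖ ≤ C) : UP X := (⟨u, C, h⟩ : bdd X)

theorem UP.seq_mk (u : ℕ → X) (C : ℝ) (h : ∀ n, ‖u n‖ ≤ C) : (UP.mk u C h).seq = u := rfl

theorem UP.seq_add (u v : UP X) (n : ℕ) : (u + v).seq n = u.seq n + v.seq n := rfl

theorem UP.seq_sub (u v : UP X) (n : ℕ) : (u - v).seq n = u.seq n - v.seq n := rfl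

theorem UP.seq_neg (u : UP X) (n : ℕ) : (-u).seq n = -u.seq n := rfl

theorem UP.seq_zero (n : ℕ) : (0 : UP X).seq n = 0 := rfl

theorem UP.seq_smul (c : ℝ) (u : UP X) (n : ℕ) : (c • u).seq n = c • u.seq n := rfl

theorem UP.exists_lim (u : UP X) : ∃ l, Tendsto (fun n => ‖u.seq n‖) UU (𝓝 l) := by
  obtain ⟨C, hC⟩ := Subtype.prop u
  obtain ⟨l, -, hl⟩ := exists_UU_lim (u := fun n => ‖u.seq n‖) fun n => ⟨norm_nonneg _, hC n⟩
  exact ⟨l, hl⟩

/-- The ultralimit of the norms. -/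
noncomputable def UP.N (u : UP X) : ℝ := u.exists_lim.choose

theorem UP.tendsto_N (u : UP X) : Tendsto (fun n => ‖u.seq n‖) UU (𝓝 u.N) :=
  u.exists_lim.choose_spec

theorem UP.N_eq {u : UP X} {l : ℝ} (h : Tendsto (fun n => ‖u.seq n‖) UU (𝓝 l)) : u.N = l :=
  haveI := UU_neBot
  tendsto_nhds_unique u.tendsto_N h

variable (X) in
/-- The ultralimit seminorm. -/
noncomputable def upSeminorm : AddGroupSeminorm (UP X) where
  toFun := UP.N
  map_zero' := UP.N_eq (by simp only [UP.seq_zero, norm_zero]; exact tendsto_const_nhds)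
  add_le' u v :=
    haveI := UU_neBot
    le_of_tendsto_of_tendsto' (u + v).tendsto_N (u.tendsto_N.add v.tendsto_N) fun n => by
      rw [UP.seq_add]; exact norm_add_le _ _
  neg' u := UP.N_eq (by simp only [UP.seq_neg, norm_neg]; exact u.tendsto_N)

noncomputable instance : SeminormedAddCommGroup (UP X) :=
  (upSeminorm X).toSeminormedAddCommGroup

theorem UP.tendsto_norm (u : UP X) : Tendsto (fun n => ‖u.seq n‖) UU (𝓝 ‖u‖) := u.tendsto_N

theorem UP.norm_eq {u : UP X} {l : ℝ} (h : Tendsto (fun n => ‖u.seq n‖) UU (𝓝 l)) : ‖u‖ = l :=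
  UP.N_eq h

noncomputable instance : NormedSpace ℝ (UP X) where
  norm_smul_le c u := (UP.norm_eq (by
    simp only [UP.seq_smul, norm_smul]
    exact u.tendsto_norm.const_mul _)).le

theorem norm_congr_null {E : Type*} [SeminormedAddCommGroup E] [NormedSpace ℝ E] {x u z v : E}
    (h1 : ‖x - u‖ = 0) (h2 : ‖z - v‖ = 0) (q : ℝ) : ‖x - q • z‖ = ‖u - q • v‖ := by
  have h3 := abs_norm_sub_norm_le (x - q • z) (u - q • v)
  have e : x - q • z - (u - q • v) = (x - u) - q • (z - v) := by module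
  have h4 := norm_sub_le (x - u) (q • (z - v))
  rw [norm_smul, h1, h2, mul_zero, add_zero, ← e] at h4
  exact sub_eq_zero.1 (abs_nonpos_iff.1 (h3.trans h4))

theorem UP.exists_unit {x₀ : X} (h₀ : ‖x₀‖ = 1) (x : UP X) (hx : ‖x‖ = 1) :
    ∃ u : UP X, (∀ n, ‖u.seq n‖ = 1) ∧ ‖x - u‖ = 0 := by
  classical
  have key : ∀ v : X, ∃ w : X, ‖w‖ = 1 ∧ ‖v - w‖ ≤ |‖v‖ - 1| := by
    intro v
    rcases (norm_nonneg v).eq_or_lt with h | h
    · refine ⟨x₀, h₀, (norm_sub_le _ _).trans ?_⟩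
      rw [← h, h₀]
      simp
    · refine ⟨‖v‖⁻¹ • v, by rw [norm_smul, norm_inv, norm_norm, inv_mul_cancel₀ h.ne'], ?_⟩
      have e : v - ‖v‖⁻¹ • v = (‖v‖ - 1) • ‖v‖⁻¹ • v := by
        rw [sub_smul, one_smul, smul_inv_smul₀ h.ne']
      rw [e, norm_smul, norm_smul, norm_inv, norm_norm, inv_mul_cancel₀ h.ne', mul_one,
        Real.norm_eq_abs]
  choose w hw1 hw2 using key
  refine ⟨UP.mk (fun n => w (x.seq n)) 1 fun n => (hw1 _).le, fun n => hw1 _, UP.norm_eq ?_⟩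
  have h1 := (x.tendsto_norm.sub_const 1).abs
  rw [hx, sub_self, abs_zero] at h1
  exact squeeze_zero (fun n => norm_nonneg _) (fun n => hw2 _) h1

end Space

variable {X Y : Type*} [SeminormedAddCommGroup X] [NormedSpace ℝ X]
  [SeminormedAddCommGroup Y] [NormedSpace ℝ Y]

/-- The correspondence induced on ultrapowers. -/
def upRel (R : X → Y → Prop) (x : UP X) (x' : UP Y) : Prop :=
  ∃ (u : UP X) (u' : UP Y), (∀ n, R (u.seq n) (u'.seq n)) ∧ ‖x - u‖ = 0 ∧ ‖x' - u'‖ = 0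

theorem tendsto_defect (u v : UP X) (u' v' : UP Y) (q : ℝ) :
    Tendsto (fun n => ‖u'.seq n - q • v'.seq n‖ - ‖u.seq n - q • v.seq n‖) UU
      (𝓝 (‖u' - q • v'‖ - ‖u - q • v‖)) :=
  (u' - q • v').tendsto_norm.sub (u - q • v).tendsto_norm

theorem Setup.up {R : X → Y → Prop} {M : ℝ} (h : Setup R M) {x₀ : X} {y₀ : Y} (r₀ : R x₀ y₀) :
    Setup (upRel R) M := by
  have := UU_neBot
  refine ⟨?_, ?_, fun x hx => ?_, fun x' hx' => ?_, ?_, ?_⟩
  · rintro x x' ⟨u, u', r, h1, -⟩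
    have e := norm_congr_null h1 h1 0
    simp only [zero_smul, sub_zero] at e
    rw [e]
    exact UP.norm_eq (by simp only [h.n1 _ _ (r _)]; exact tendsto_const_nhds)
  · rintro x x' ⟨u, u', r, -, h1⟩
    have e := norm_congr_null h1 h1 0
    simp only [zero_smul, sub_zero] at e
    rw [e]
    exact UP.norm_eq (by simp only [h.n2 _ _ (r _)]; exact tendsto_const_nhds)
  · obtain ⟨u, hu, hxu⟩ := UP.exists_unit (h.n1 _ _ r₀) x hx
    choose w hw using fun n => h.tot1 _ (hu n)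
    exact ⟨UP.mk w 1 fun n => (h.n2 _ _ (hw n)).le, u, UP.mk w 1 fun n => (h.n2 _ _ (hw n)).le,
      hw, hxu, by rw [sub_self, norm_zero]⟩
  · obtain ⟨u, hu, hxu⟩ := UP.exists_unit (h.n2 _ _ r₀) x' hx'
    choose w hw using fun n => h.tot2 _ (hu n)
    exact ⟨UP.mk w 1 fun n => (h.n1 _ _ (hw n)).le, UP.mk w 1 fun n => (h.n1 _ _ (hw n)).le, u,
      hw, by rw [sub_self, norm_zero], hxu⟩
  · rintro x x' z z' ⟨u, u', r, h1, h2⟩ ⟨v, v', s, h3, h4⟩
    have e1 := norm_congr_null h1 h3 1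
    have e2 := norm_congr_null h2 h4 1
    simp only [one_smul] at e1 e2
    rw [e1, e2]
    exact UP.norm_eq (by
      simp only [UP.seq_sub, h.iso _ _ _ _ (r _) (s _)]
      exact (u - v).tendsto_norm)
  · rintro x x' z z' ⟨u, u', r, h1, h2⟩ ⟨v, v', s, h3, h4⟩ q hq0 hq1
    rw [norm_congr_null h1 h3 q, norm_congr_null h2 h4 q]
    exact le_of_tendsto' (tendsto_defect u v u' v' q).abs fun n =>
      h.bd _ _ _ _ (r n) (s n) q hq0 hq1

/-- The radial defect of an isometric correspondence between unit spheres vanishes. -/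
theorem Setup.zero {R : X → Y → Prop} {M₀ : ℝ} (h : Setup R M₀) : Setup R 0 := by
  have := UU_neBot
  let S : Set ℝ := {d | ∃ x x' z z' q, R x x' ∧ R z z' ∧ 0 ≤ q ∧ q ≤ (1 : ℝ) ∧
    d = |‖x' - q • z'‖ - ‖x - q • z‖|}
  have hbdd : BddAbove S := ⟨M₀, fun d ⟨x, x', z, z', q, r, s, h0, h1, e⟩ =>
    e ▸ h.bd _ _ _ _ r s q h0 h1⟩
  have hS : Setup R (sSup S) := ⟨h.n1, h.n2, h.tot1, h.tot2, h.iso,
    fun x x' z z' r s q h0 h1 => le_csSup hbdd ⟨x, x', z, z', q, r, s, h0, h1, rfl⟩⟩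
  refine ⟨h.n1, h.n2, h.tot1, h.tot2, h.iso, fun x₀ y₀ z₀ z₀' r₀ s₀ q₀ h0 h1 => ?_⟩
  refine (hS.bd _ _ _ _ r₀ s₀ q₀ h0 h1).trans (not_lt.1 fun hM => ?_)
  have hne : S.Nonempty := ⟨_, x₀, y₀, z₀, z₀', q₀, r₀, s₀, h0, h1, rfl⟩
  obtain ⟨d, -, hd, hdS⟩ := exists_seq_tendsto_sSup hne hbdd
  choose x x' z z' q r s hq0 hq1 e using hdS
  obtain ⟨t, ht, hq⟩ := exists_UU_lim (u := q) fun n => ⟨hq0 n, hq1 n⟩
  let u := UP.mk x 1 fun n => (h.n1 _ _ (r n)).le
  let u' := UP.mk x' 1 fun n => (h.n2 _ _ (r n)).le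
  let v := UP.mk z 1 fun n => (h.n1 _ _ (s n)).le
  let v' := UP.mk z' 1 fun n => (h.n2 _ _ (s n)).le
  refine core (hS.up r₀) hM ht.1 ht.2 (y := v) (y' := v') (x := u) (x' := u')
    ⟨v, v', s, by rw [sub_self, norm_zero], by rw [sub_self, norm_zero]⟩
    ⟨u, u', r, by rw [sub_self, norm_zero], by rw [sub_self, norm_zero]⟩ ?_
  refine tendsto_nhds_unique (tendsto_defect u v u' v' t).abs ?_
  have h2 : Tendsto (fun n => 2 * |q n - t|) UU (𝓝 0) := by
    simpa using (hq.sub_const t).abs.const_mul 2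
  refine (hd.mono_left UU_le).congr_dist (squeeze_zero (fun n => dist_nonneg) (fun n => ?_) h2)
  have a1 := abs_norm_sub_norm_le (x' n - q n • z' n) (x' n - t • z' n)
  have a2 := abs_norm_sub_norm_le (x n - t • z n) (x n - q n • z n)
  rw [sub_sub_sub_cancel_left, ← sub_smul, norm_smul, h.n2 _ _ (s n), mul_one, Real.norm_eq_abs,
    abs_sub_comm t] at a1
  rw [sub_sub_sub_cancel_left, ← sub_smul, norm_smul, h.n1 _ _ (s n), mul_one,
    Real.norm_eq_abs] at a2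
  rw [e n, Real.dist_eq]
  refine (abs_abs_sub_abs_le_abs_sub _ _).trans ?_
  change |‖x' n - q n • z' n‖ - ‖x n - q n • z n‖ - (‖x' n - t • z' n‖ - ‖x n - t • z n‖)| ≤ _
  rw [abs_le] at a1 a2 ⊢
  constructor <;> linarith [a1.1, a1.2, a2.1, a2.2]

end Vale.Agent.P084
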